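import Mathlib

/-!
The part of a simplex inside a convex body which is not `δ`-deep has small volume.
-/

open MeasureTheory Set Module
open scoped ENNReal Pointwise Topology

namespace Vale.Agent.helper6.G

/-- Ambient space for bodies in product form. -/
abbrev P3 := (ℝ × ℝ) × ℝ

instance instHaarP3 : (volume : Measure P3).IsAddHaarMeasure := by
  rw [Measure.volume_eq_prod]
  infer_instance

/-- The points of `L` about which `L` has a large centrally symmetric part. -/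
def deep (L : Set P3) (δ : ℝ) : Set P3 :=
  {p | p ∈ L ∧ ENNReal.ofReal (2 * δ) * volume L ≤ volume (L ∩ {q | (2 : ℝ) • p - q ∈ L})}

/-- The simplex with given vertices, in barycentric coordinates. -/
def tet (p₀ p₁ p₂ p₃ : P3) : Set P3 :=
  {x | ∃ a b c d : ℝ, 0 ≤ a ∧ 0 ≤ b ∧ 0 ≤ c ∧ 0 ≤ d ∧ a + b + c + d = 1 ∧
    x = a • p₀ + b • p₁ + c • p₂ + d • p₃}

lemma tet_subset {L : Set P3} (hconv : Convex ℝ L) {p₀ p₁ p₂ p₃ : P3} (h₀ : p₀ ∈ L) (h₁ : p₁ ∈ L)
    (h₂ : p₂ ∈ L) (h₃ : p₃ ∈ L) : tet p₀ p₁ p₂ p₃ ⊆ L := by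
  rintro x ⟨a, b, c, d, ha, hb, hc, hd, hs, rfl⟩
  have h := hconv.sum_mem (t := Finset.univ) (w := ![a, b, c, d]) (z := ![p₀, p₁, p₂, p₃])
    (by intro i _; fin_cases i <;> simp [ha, hb, hc, hd])
    (by simp [Fin.sum_univ_four, hs])
    (by intro i _; fin_cases i <;> simp [h₀, h₁, h₂, h₃])
  simpa [Fin.sum_univ_four] using h

/-- The linear map with given columns. -/
def lin3 (u v w : P3) : P3 →ₗ[ℝ] P3 where
  toFun t := t.1.1 • u + t.1.2 • v + t.2 • w
  map_add' p q := by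
    simp only [Prod.fst_add, Prod.snd_add, add_smul]
    abel
  map_smul' c p := by
    simp only [Prod.smul_fst, Prod.smul_snd, smul_eq_mul, mul_smul, RingHom.id_apply, smul_add]

@[simp] lemma lin3_apply (u v w t : P3) : lin3 u v w t = t.1.1 • u + t.1.2 • v + t.2 • w := rfl

/-- A box in `P3`. -/
def box3 (a b c a' b' c' : ℝ) : Set P3 := (Icc a a' ×ˢ Icc b b') ×ˢ Icc c c'

lemma volume_box3 (a b c a' b' c' : ℝ) :
    volume (box3 a b c a' b' c') =
      ENNReal.ofReal (a' - a) * ENNReal.ofReal (b' - b) * ENNReal.ofReal (c' - c) := by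
  rw [box3, Measure.volume_eq_prod, Measure.prod_prod, Measure.volume_eq_prod, Measure.prod_prod]
  simp only [Real.volume_Icc]

lemma volume_translate_image (x : P3) (Λ : P3 →ₗ[ℝ] P3) (S : Set P3) :
    volume ((fun t => x + Λ t) '' S) = ENNReal.ofReal |LinearMap.det Λ| * volume S := by
  have : (fun t => x + Λ t) '' S = (fun p => x + p) '' (Λ '' S) := by
    rw [image_image]
  rw [this, Set.image_add_left, measure_preimage_add, Measure.addHaar_image_linearMap]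

/-- The negative power used for the Markov estimate, infinite at the origin. -/
noncomputable def hpow (t : ℝ) : ℝ≥0∞ :=
  if 0 < t then ENNReal.ofReal (t ^ (-(7 / 8) : ℝ)) else ⊤

lemma measurable_hpow : Measurable hpow := by
  refine Measurable.ite measurableSet_Ioi ?_ measurable_const
  exact ENNReal.measurable_ofReal.comp (by fun_prop)

lemma lintegral_hpow : ∫⁻ t in Icc (0 : ℝ) 1, hpow t = 8 := by
  rw [← setLIntegral_congr Ioc_ae_eq_Icc]
  have h1 : ∫⁻ t in Ioc (0 : ℝ) 1, hpow t = ∫⁻ t in Ioc (0 : ℝ) 1, ENNReal.ofReal (t ^ (-(7 / 8) : ℝ)) := by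
    refine setLIntegral_congr_fun measurableSet_Ioc ?_
    intro t ht
    simp [hpow, ht.1]
  rw [h1]
  have hint : IntervalIntegrable (fun t : ℝ => t ^ (-(7 / 8) : ℝ)) volume 0 1 :=
    intervalIntegral.intervalIntegrable_rpow' (by norm_num)
  have hval : ∫ t in (0 : ℝ)..1, t ^ (-(7 / 8) : ℝ) = 8 := by
    rw [integral_rpow (Or.inl (by norm_num))]
    norm_num
  have h2 := ofReal_integral_eq_lintegral_ofReal (μ := volume.restrict (Ioc (0 : ℝ) 1))
    (f := fun t : ℝ => t ^ (-(7 / 8) : ℝ))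
    ((intervalIntegrable_iff_integrableOn_Ioc_of_le zero_le_one).mp hint)
    (by
      refine ae_restrict_of_forall_mem measurableSet_Ioc fun t ht => ?_
      exact Real.rpow_nonneg ht.1.le _)
  rw [← h2, ← intervalIntegral.integral_of_le zero_le_one, hval]
  simp

/-- The unit box. -/
def ubox : Set P3 := box3 0 0 0 1 1 1

lemma measurableSet_ubox : MeasurableSet ubox :=
  ((measurableSet_Icc.prod measurableSet_Icc).prod measurableSet_Icc)

lemma lintegral_hpow_three :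
    ∫⁻ t in ubox, hpow t.1.1 * hpow t.1.2 * hpow t.2 = 512 := by
  have hm : Measurable hpow := measurable_hpow
  have h : (volume : Measure P3).restrict ubox =
      ((volume.restrict (Icc (0 : ℝ) 1)).prod (volume.restrict (Icc (0 : ℝ) 1))).prod
        (volume.restrict (Icc (0 : ℝ) 1)) := by
    rw [ubox, box3, Measure.volume_eq_prod, ← Measure.prod_restrict, Measure.volume_eq_prod,
      ← Measure.prod_restrict]
  rw [h, lintegral_prod_mul (f := fun p : ℝ × ℝ => hpow p.1 * hpow p.2) (g := hpow)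
    (by fun_prop) hm.aemeasurable, lintegral_prod_mul hm.aemeasurable hm.aemeasurable,
    lintegral_hpow]
  norm_num

/-- Markov estimate for the volume of the region below a hyperbolic surface. -/
lemma volume_hyperbolic_le {κ : ℝ} (hκ : 0 < κ) :
    volume (ubox ∩ {t : P3 | t.1.1 * t.1.2 * t.2 < κ}) ≤ ENNReal.ofReal (κ ^ ((7 : ℝ) / 8)) * 512 := by
  have hm : Measurable hpow := measurable_hpow
  set F : P3 → ℝ≥0∞ := fun t => ENNReal.ofReal (κ ^ ((7 : ℝ) / 8)) * (hpow t.1.1 * hpow t.1.2 * hpow t.2)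
    with hF
  have hFm : Measurable F := by
    simp only [hF]
    fun_prop
  have hκp : 0 < κ ^ ((7 : ℝ) / 8) := Real.rpow_pos_of_pos hκ _
  have hofp : ENNReal.ofReal (κ ^ ((7 : ℝ) / 8)) ≠ 0 := by
    simpa using hκp
  have hpne : ∀ t, hpow t ≠ 0 := by
    intro t
    by_cases ht : 0 < t
    · simp only [hpow, ht, if_true]
      simpa using Real.rpow_pos_of_pos ht _
    · simp [hpow, ht]
  have hsub : ubox ∩ {t : P3 | t.1.1 * t.1.2 * t.2 < κ} ⊆ ubox ∩ {t | 1 ≤ F t} := by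
    rintro t ⟨hbox, hlt⟩
    refine ⟨hbox, ?_⟩
    simp only [mem_ofPred_eq] at hlt ⊢
    rcases hbox with ⟨⟨h1, h2⟩, h3⟩
    by_cases ht1 : 0 < t.1.1
    · by_cases ht2 : 0 < t.1.2
      · by_cases ht3 : 0 < t.2
        · simp only [hF, hpow, ht1, ht2, ht3, if_true]
          have hprod : 0 < t.1.1 * t.1.2 * t.2 := by positivity
          have hnn1 : 0 ≤ t.1.1 ^ (-(7 / 8) : ℝ) := (Real.rpow_pos_of_pos ht1 _).le
          have hnn2 : 0 ≤ t.1.2 ^ (-(7 / 8) : ℝ) := (Real.rpow_pos_of_pos ht2 _).le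
          have hnn3 : 0 ≤ t.2 ^ (-(7 / 8) : ℝ) := (Real.rpow_pos_of_pos ht3 _).le
          rw [← ENNReal.ofReal_mul hnn1, ← ENNReal.ofReal_mul (by positivity),
            ← ENNReal.ofReal_mul hκp.le, ← ENNReal.ofReal_one]
          apply ENNReal.ofReal_le_ofReal
          have e1 : t.1.1 ^ (-(7 / 8) : ℝ) * t.1.2 ^ (-(7 / 8) : ℝ) * t.2 ^ (-(7 / 8) : ℝ) =
              (t.1.1 * t.1.2 * t.2) ^ (-(7 / 8) : ℝ) := by
            rw [Real.mul_rpow (by positivity) ht3.le, Real.mul_rpow ht1.le ht2.le]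
          rw [e1, Real.rpow_neg hprod.le, ← div_eq_mul_inv, one_le_div (Real.rpow_pos_of_pos hprod _)]
          exact Real.rpow_le_rpow hprod.le hlt.le (by norm_num)
        · have : hpow t.2 = ⊤ := by simp [hpow, ht3]
          simp only [hF, this]
          rw [ENNReal.mul_top (mul_ne_zero (hpne _) (hpne _)), ENNReal.mul_top hofp]
          exact le_top
      · have : hpow t.1.2 = ⊤ := by simp [hpow, ht2]
        simp only [hF, this]
        rw [ENNReal.mul_top (hpne _), ENNReal.top_mul (hpne _), ENNReal.mul_top hofp]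
        exact le_top
    · have : hpow t.1.1 = ⊤ := by simp [hpow, ht1]
      simp only [hF, this]
      rw [ENNReal.top_mul (hpne _), ENNReal.top_mul (hpne _), ENNReal.mul_top hofp]
      exact le_top
  have hmeq : volume (ubox ∩ {t | 1 ≤ F t}) = (volume.restrict ubox) {t | 1 ≤ F t} := by
    rw [Measure.restrict_apply (measurableSet_le measurable_const hFm), inter_comm]
  calc volume (ubox ∩ {t : P3 | t.1.1 * t.1.2 * t.2 < κ})
      ≤ (volume.restrict ubox) {t | 1 ≤ F t} := by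
        rw [← hmeq]; exact measure_mono hsub
    _ = 1 * (volume.restrict ubox) {t | 1 ≤ F t} := by rw [one_mul]
    _ ≤ ∫⁻ t, F t ∂(volume.restrict ubox) := mul_meas_ge_le_lintegral hFm 1
    _ = ENNReal.ofReal (κ ^ ((7 : ℝ) / 8)) * 512 := by
        simp only [hF]
        rw [lintegral_const_mul _ (by fun_prop), lintegral_hpow_three]

/-- Barycentric form with the first vertex as base. -/
lemma lin3_bary (p₀ p₁ p₂ p₃ : P3) (b c d : ℝ) :
    (1 - b - c - d) • p₀ + b • p₁ + c • p₂ + d • p₃ =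
      p₀ + lin3 (p₁ - p₀) (p₂ - p₀) (p₃ - p₀) ((b, c), d) := by
  simp only [lin3_apply]
  module

/-- The points with dominant first barycentric coordinate. -/
def domSet (p₀ p₁ p₂ p₃ : P3) : Set P3 :=
  {x | ∃ a b c d : ℝ, 0 ≤ a ∧ 0 ≤ b ∧ 0 ≤ c ∧ 0 ≤ d ∧ a + b + c + d = 1 ∧ b ≤ a ∧ c ≤ a ∧ d ≤ a ∧
    x = a • p₀ + b • p₁ + c • p₂ + d • p₃}

lemma wet_base {L : Set P3} (hconv : Convex ℝ L) (hfin : volume L ≠ ⊤) {p₀ p₁ p₂ p₃ : P3}
    (h₀ : p₀ ∈ L) (h₁ : p₁ ∈ L) (h₂ : p₂ ∈ L) (h₃ : p₃ ∈ L) {δ : ℝ} (hδ : 0 < δ) :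
    volume (domSet p₀ p₁ p₂ p₃ \ deep L δ) ≤
      ENNReal.ofReal (27 * 512 * δ ^ ((7 : ℝ) / 8)) * volume L := by
  set Λ := lin3 (p₁ - p₀) (p₂ - p₀) (p₃ - p₀) with hΛ
  set D := |LinearMap.det Λ| with hD
  have hD0 : 0 ≤ D := abs_nonneg _
  set V := (volume L).toReal with hV
  have hVe : ENNReal.ofReal V = volume L := ENNReal.ofReal_toReal hfin
  have hV0 : 0 ≤ V := ENNReal.toReal_nonneg
  have hsubL := tet_subset hconv h₀ h₁ h₂ h₃
  -- the determinant is controlled by the volume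
  have hDV : D ≤ 27 * V := by
    have hsub : (fun t => p₀ + Λ t) '' box3 0 0 0 (1 / 3) (1 / 3) (1 / 3) ⊆ L := by
      rintro _ ⟨⟨⟨b, c⟩, d⟩, ⟨⟨⟨hb0, hb1⟩, ⟨hc0, hc1⟩⟩, ⟨hd0, hd1⟩⟩, rfl⟩
      simp only at hb0 hb1 hc0 hc1 hd0 hd1
      apply hsubL
      refine ⟨1 - b - c - d, b, c, d, by linarith, hb0, hc0, hd0, by ring, ?_⟩
      rw [lin3_bary]
    have h1 := measure_mono (μ := (volume : Measure P3)) hsub
    rw [volume_translate_image, volume_box3, ← hD, ← hVe, ← ENNReal.ofReal_mul (by norm_num),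
      ← ENNReal.ofReal_mul (by norm_num), ← ENNReal.ofReal_mul hD0] at h1
    have h2 := (ENNReal.ofReal_le_ofReal_iff hV0).mp h1
    norm_num at h2
    linarith
  -- pointwise estimate
  have hpt : ∀ x ∈ domSet p₀ p₁ p₂ p₃ \ deep L δ, ∃ b c d : ℝ, ((b, c), d) ∈ ubox ∧
      D * (8 / 27 * (b * c * d)) < 2 * δ * V ∧ x = p₀ + Λ ((b, c), d) := by
    rintro x ⟨⟨a, b, c, d, ha, hb, hc, hd, hs, hba, hca, hda, rfl⟩, hnd⟩
    have ha' : a = 1 - b - c - d := by linarith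
    set x := a • p₀ + b • p₁ + c • p₂ + d • p₃ with hx
    have hxΛ : x = p₀ + Λ ((b, c), d) := by
      rw [hx, ha', lin3_bary]
    refine ⟨b, c, d, ⟨⟨⟨hb, by linarith⟩, ⟨hc, by linarith⟩⟩, ⟨hd, by linarith⟩⟩, ?_, hxΛ⟩
    have hxL : x ∈ L := hsubL ⟨a, b, c, d, ha, hb, hc, hd, hs, rfl⟩
    -- points near `x`
    have hnear : ∀ w : P3, |w.1.1| ≤ b / 3 → |w.1.2| ≤ c / 3 → |w.2| ≤ d / 3 → x + Λ w ∈ L := by
      intro w h1 h2 h3
      obtain ⟨h1a, h1b⟩ := abs_le.mp h1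
      obtain ⟨h2a, h2b⟩ := abs_le.mp h2
      obtain ⟨h3a, h3b⟩ := abs_le.mp h3
      apply hsubL
      refine ⟨a - w.1.1 - w.1.2 - w.2, b + w.1.1, c + w.1.2, d + w.2, by linarith, by linarith,
        by linarith, by linarith, by linarith, ?_⟩
      simp only [hx, hΛ, lin3_apply]
      module
    have hsub : (fun w => x + Λ w) '' box3 (-(b / 3)) (-(c / 3)) (-(d / 3)) (b / 3) (c / 3) (d / 3) ⊆
        L ∩ {q | (2 : ℝ) • x - q ∈ L} := by
      rintro _ ⟨⟨⟨w₁, w₂⟩, w₃⟩, ⟨⟨⟨hw₁a, hw₁b⟩, ⟨hw₂a, hw₂b⟩⟩, ⟨hw₃a, hw₃b⟩⟩, rfl⟩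
      simp only at hw₁a hw₁b hw₂a hw₂b hw₃a hw₃b
      refine ⟨hnear _ (abs_le.mpr ⟨hw₁a, hw₁b⟩) (abs_le.mpr ⟨hw₂a, hw₂b⟩) (abs_le.mpr ⟨hw₃a, hw₃b⟩), ?_⟩
      have hneg : (2 : ℝ) • x - (x + Λ ((w₁, w₂), w₃)) = x + Λ (-((w₁, w₂), w₃)) := by
        rw [map_neg]
        module
      simp only [mem_ofPred_eq]
      rw [hneg]
      apply hnear
      · simpa using abs_le.mpr ⟨hw₁a, hw₁b⟩
      · simpa using abs_le.mpr ⟨hw₂a, hw₂b⟩
      · simpa using abs_le.mpr ⟨hw₃a, hw₃b⟩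
    have hlow := measure_mono (μ := (volume : Measure P3)) hsub
    rw [volume_translate_image, volume_box3, ← hD] at hlow
    have hlt : volume (L ∩ {q | (2 : ℝ) • x - q ∈ L}) < ENNReal.ofReal (2 * δ) * volume L := by
      by_contra hcon
      exact hnd ⟨hxL, not_lt.mp hcon⟩
    have h3 := hlow.trans_lt hlt
    have e1 : b / 3 - -(b / 3) = 2 * b / 3 := by ring
    have e2 : c / 3 - -(c / 3) = 2 * c / 3 := by ring
    have e3 : d / 3 - -(d / 3) = 2 * d / 3 := by ring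
    rw [e1, e2, e3] at h3
    have eL : ENNReal.ofReal D * (ENNReal.ofReal (2 * b / 3) * ENNReal.ofReal (2 * c / 3) *
        ENNReal.ofReal (2 * d / 3)) = ENNReal.ofReal (D * (2 * b / 3 * (2 * c / 3) * (2 * d / 3))) := by
      rw [ENNReal.ofReal_mul hD0, ENNReal.ofReal_mul (by positivity), ENNReal.ofReal_mul (by positivity)]
    have eR : ENNReal.ofReal (2 * δ) * volume L = ENNReal.ofReal (2 * δ * V) := by
      rw [← hVe, ← ENNReal.ofReal_mul (by positivity)]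
    rw [eL, eR] at h3
    have hprodnn : 0 ≤ 2 * δ * V := by positivity
    have h4 := (ENNReal.ofReal_lt_ofReal_iff_of_nonneg
      (mul_nonneg hD0 (by positivity))).mp h3
    calc D * (8 / 27 * (b * c * d)) = D * (2 * b / 3 * (2 * c / 3) * (2 * d / 3)) := by ring
      _ < _ := h4
  rcases hD0.eq_or_lt with hD00 | hDpos
  · -- degenerate simplex
    have hsub : domSet p₀ p₁ p₂ p₃ \ deep L δ ⊆ (fun t => p₀ + Λ t) '' univ := by
      intro x hx
      obtain ⟨b, c, d, -, -, hxe⟩ := hpt x hx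
      exact ⟨_, mem_univ _, hxe.symm⟩
    have h0 := measure_mono (μ := (volume : Measure P3)) hsub
    rw [volume_translate_image, ← hD, ← hD00] at h0
    simp only [ENNReal.ofReal_zero, zero_mul, nonpos_iff_eq_zero] at h0
    rw [h0]
    simp
  -- main case
  have hVpos : 0 < V := by nlinarith
  set ρ := 27 * V / D with hρ
  have hρ1 : 1 ≤ ρ := by
    rw [hρ, one_le_div hDpos]
    exact hDV
  set κ := δ * ρ with hκ
  have hκpos : 0 < κ := by positivity
  have hsub : domSet p₀ p₁ p₂ p₃ \ deep L δ ⊆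
      (fun t => p₀ + Λ t) '' (ubox ∩ {t : P3 | t.1.1 * t.1.2 * t.2 < κ}) := by
    intro x hx
    obtain ⟨b, c, d, hbox, hlt, hxe⟩ := hpt x hx
    refine ⟨((b, c), d), ⟨hbox, ?_⟩, hxe.symm⟩
    simp only [mem_ofPred_eq]
    have e : D * κ = δ * (27 * V) := by
      rw [hκ, hρ]
      field_simp
    have h5 : D * (b * c * d) < D * κ := by
      rw [e]
      have hbcd : 0 ≤ b * c * d := by
        rcases hbox with ⟨⟨⟨hb, _⟩, ⟨hc, _⟩⟩, ⟨hd, _⟩⟩
        simp only at hb hc hd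
        positivity
      nlinarith
    exact lt_of_mul_lt_mul_left h5 hD0
  have hκpow : D * κ ^ ((7 : ℝ) / 8) ≤ 27 * V * δ ^ ((7 : ℝ) / 8) := by
    have h1 : κ ^ ((7 : ℝ) / 8) = δ ^ ((7 : ℝ) / 8) * ρ ^ ((7 : ℝ) / 8) := by
      rw [hκ, Real.mul_rpow hδ.le (by positivity)]
    have h2 : ρ ^ ((7 : ℝ) / 8) ≤ ρ := by
      calc ρ ^ ((7 : ℝ) / 8) ≤ ρ ^ (1 : ℝ) :=
            Real.rpow_le_rpow_of_exponent_le hρ1 (by norm_num)
        _ = ρ := Real.rpow_one _
    have h3 : D * ρ = 27 * V := by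
      rw [hρ]
      field_simp
    have h4 : 0 ≤ δ ^ ((7 : ℝ) / 8) := (Real.rpow_pos_of_pos hδ _).le
    rw [h1]
    calc D * (δ ^ ((7 : ℝ) / 8) * ρ ^ ((7 : ℝ) / 8))
        = δ ^ ((7 : ℝ) / 8) * (D * ρ ^ ((7 : ℝ) / 8)) := by ring
      _ ≤ δ ^ ((7 : ℝ) / 8) * (D * ρ) := by gcongr
      _ = 27 * V * δ ^ ((7 : ℝ) / 8) := by rw [h3]; ring
  calc volume (domSet p₀ p₁ p₂ p₃ \ deep L δ)
      ≤ volume ((fun t => p₀ + Λ t) '' (ubox ∩ {t : P3 | t.1.1 * t.1.2 * t.2 < κ})) :=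
        measure_mono hsub
    _ = ENNReal.ofReal D * volume (ubox ∩ {t : P3 | t.1.1 * t.1.2 * t.2 < κ}) := by
        rw [volume_translate_image]
    _ ≤ ENNReal.ofReal D * (ENNReal.ofReal (κ ^ ((7 : ℝ) / 8)) * 512) := by
        gcongr
        exact volume_hyperbolic_le hκpos
    _ = ENNReal.ofReal (D * κ ^ ((7 : ℝ) / 8) * 512) := by
        rw [ENNReal.ofReal_mul (by positivity), ENNReal.ofReal_mul hD0]
        simp only [ENNReal.ofReal_ofNat]
        ring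
    _ ≤ ENNReal.ofReal (27 * 512 * δ ^ ((7 : ℝ) / 8) * V) := by
        apply ENNReal.ofReal_le_ofReal
        nlinarith
    _ = ENNReal.ofReal (27 * 512 * δ ^ ((7 : ℝ) / 8)) * volume L := by
        rw [ENNReal.ofReal_mul (by positivity), hVe]

/-- The part of a simplex inside a convex body which is not deep is small. -/
theorem wet_tet {L : Set P3} (hconv : Convex ℝ L) (hfin : volume L ≠ ⊤) {p₀ p₁ p₂ p₃ : P3}
    (h₀ : p₀ ∈ L) (h₁ : p₁ ∈ L) (h₂ : p₂ ∈ L) (h₃ : p₃ ∈ L) {δ : ℝ} (hδ : 0 < δ) :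
    volume (tet p₀ p₁ p₂ p₃ \ deep L δ) ≤
      ENNReal.ofReal (4 * (27 * 512 * δ ^ ((7 : ℝ) / 8))) * volume L := by
  have hsub : tet p₀ p₁ p₂ p₃ \ deep L δ ⊆
      ((domSet p₀ p₁ p₂ p₃ \ deep L δ) ∪ (domSet p₁ p₀ p₂ p₃ \ deep L δ)) ∪
      ((domSet p₂ p₀ p₁ p₃ \ deep L δ) ∪ (domSet p₃ p₀ p₁ p₂ \ deep L δ)) := by
    rintro x ⟨⟨a, b, c, d, ha, hb, hc, hd, hs, hx⟩, hnd⟩
    -- choose the largest coordinate
    have hcase : (b ≤ a ∧ c ≤ a ∧ d ≤ a) ∨ (a ≤ b ∧ c ≤ b ∧ d ≤ b) ∨ (a ≤ c ∧ b ≤ c ∧ d ≤ c) ∨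
        (a ≤ d ∧ b ≤ d ∧ c ≤ d) := by
      rcases le_total a b with h1 | h1 <;> rcases le_total c d with h2 | h2 <;>
      rcases le_total a c with h3 | h3 <;> rcases le_total a d with h4 | h4 <;>
      rcases le_total b c with h5 | h5 <;> rcases le_total b d with h6 | h6 <;>
      first
        | exact Or.inl ⟨by linarith, by linarith, by linarith⟩
        | exact Or.inr (Or.inl ⟨by linarith, by linarith, by linarith⟩)
        | exact Or.inr (Or.inr (Or.inl ⟨by linarith, by linarith, by linarith⟩))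
        | exact Or.inr (Or.inr (Or.inr ⟨by linarith, by linarith, by linarith⟩))
    rcases hcase with ⟨h1, h2, h3⟩ | ⟨h1, h2, h3⟩ | ⟨h1, h2, h3⟩ | ⟨h1, h2, h3⟩
    · exact Or.inl (Or.inl ⟨⟨a, b, c, d, ha, hb, hc, hd, hs, h1, h2, h3, hx⟩, hnd⟩)
    · refine Or.inl (Or.inr ⟨⟨b, a, c, d, hb, ha, hc, hd, by linarith, h1, h2, h3, ?_⟩, hnd⟩)
      rw [hx]; abel
    · refine Or.inr (Or.inl ⟨⟨c, a, b, d, hc, ha, hb, hd, by linarith, h1, h2, h3, ?_⟩, hnd⟩)
      rw [hx]; abel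
    · refine Or.inr (Or.inr ⟨⟨d, a, b, c, hd, ha, hb, hc, by linarith, h1, h2, h3, ?_⟩, hnd⟩)
      rw [hx]; abel
  set W := ENNReal.ofReal (27 * 512 * δ ^ ((7 : ℝ) / 8)) * volume L with hW
  have h1 := wet_base hconv hfin h₀ h₁ h₂ h₃ hδ
  have h2 := wet_base hconv hfin h₁ h₀ h₂ h₃ hδ
  have h3 := wet_base hconv hfin h₂ h₀ h₁ h₃ hδ
  have h4 := wet_base hconv hfin h₃ h₀ h₁ h₂ hδ
  calc volume (tet p₀ p₁ p₂ p₃ \ deep L δ)
      ≤ (volume (domSet p₀ p₁ p₂ p₃ \ deep L δ) + volume (domSet p₁ p₀ p₂ p₃ \ deep L δ)) +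
        (volume (domSet p₂ p₀ p₁ p₃ \ deep L δ) + volume (domSet p₃ p₀ p₁ p₂ \ deep L δ)) :=
        (measure_mono hsub).trans ((measure_union_le _ _).trans
          (add_le_add (measure_union_le _ _) (measure_union_le _ _)))
    _ ≤ (W + W) + (W + W) := add_le_add (add_le_add h1 h2) (add_le_add h3 h4)
    _ = ENNReal.ofReal (4 * (27 * 512 * δ ^ ((7 : ℝ) / 8))) * volume L := by
        have e4 : ENNReal.ofReal (4 * (27 * 512 * δ ^ ((7 : ℝ) / 8))) =
            4 * ENNReal.ofReal (27 * 512 * δ ^ ((7 : ℝ) / 8)) := by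
          rw [ENNReal.ofReal_mul (by norm_num)]
          simp
        rw [e4, hW]
        ring

end Vale.Agent.helper6.G
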