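import Mathlib
import Vale.Agent.helper6.BangCore
import Vale.Agent.helper6.G.Wet

/-!
Chords of a convex body and the section bound for the deep set.
-/

open MeasureTheory Set Module
open scoped ENNReal Pointwise Topology

namespace Vale.Agent.helper6.G

open Vale.Agent.helper6.Bang (exists_dual integral_weight section_convex)

/-- Layer cake bound for the volume of a subset of `P3`. -/
lemma layer_cake {W : Set P3} (hW : MeasurableSet W) (hfin : ∀ y : ℝ × ℝ, volume (Prod.mk y ⁻¹' W) ≠ ⊤)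
    {h s : ℝ} (hh : 0 < h) (hs : 0 ≤ s) {A : ℝ≥0∞}
    (hpt : ∀ τ : ℝ, 0 < τ → τ ≤ 1 → ENNReal.ofReal (τ * (τ + (1 - τ) * s)) * A ≤
      volume {y : ℝ × ℝ | ENNReal.ofReal ((1 - τ) * h) ≤ volume (Prod.mk y ⁻¹' W)}) :
    ENNReal.ofReal (h * (2 + s) / 6) * A ≤ volume W := by
  set φ : ℝ × ℝ → ℝ≥0∞ := fun v => volume (Prod.mk v ⁻¹' W) with hφ
  have hφm : Measurable φ := measurable_measure_prodMk_left hW
  set f : ℝ × ℝ → ℝ := fun v => (φ v).toReal with hf
  have hfm : Measurable f := hφm.ennreal_toReal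
  have hprod : volume W = ∫⁻ t in Ioi (0 : ℝ), volume {v | t ≤ f v} := by
    rw [Measure.volume_eq_prod, Measure.prod_apply hW, ← lintegral_eq_lintegral_meas_le volume
      (Filter.Eventually.of_forall fun v => ENNReal.toReal_nonneg) hfm.aemeasurable]
    refine lintegral_congr fun v => ?_
    rw [ENNReal.ofReal_toReal (hfin v)]
  set G : ℝ → ℝ := fun x => (1 - x / h) * ((1 - x / h) + (1 - (1 - x / h)) * s) with hG
  have hGc : Continuous G := by fun_prop (disch := exact hh.ne')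
  have hpt' : ∀ x ∈ Ioo (0 : ℝ) h, ENNReal.ofReal (G x) * A ≤ volume {v | x ≤ f v} := by
    intro x hx
    have hτ0 : 0 < 1 - x / h := by
      have : x / h < 1 := (div_lt_one hh).mpr hx.2
      linarith
    have hτ1 : 1 - x / h ≤ 1 := by
      have : 0 < x / h := div_pos hx.1 hh
      linarith
    have h1 := hpt _ hτ0 hτ1
    refine h1.trans (measure_mono ?_)
    intro v hv
    simp only [mem_ofPred_eq] at hv ⊢
    have hxe : (1 - (1 - x / h)) * h = x := by
      field_simp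
      ring
    rw [hxe] at hv
    exact (ENNReal.ofReal_le_iff_le_toReal (hfin v)).mp hv
  have hint : ∫⁻ x in Ioo (0 : ℝ) h, ENNReal.ofReal (G x) = ENNReal.ofReal (h * (2 + s) / 6) := by
    rw [← integral_weight (s := s) hh, intervalIntegral.integral_of_le hh.le,
      integral_Ioc_eq_integral_Ioo, ofReal_integral_eq_lintegral_ofReal
        (hGc.integrableOn_Icc.mono_set Ioo_subset_Icc_self)]
    refine ae_restrict_of_forall_mem measurableSet_Ioo fun x hx => ?_
    have hτ0 : 0 < 1 - x / h := by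
      have : x / h < 1 := (div_lt_one hh).mpr hx.2
      linarith
    have hτ1 : 0 < x / h := div_pos hx.1 hh
    simp only [Pi.zero_apply, hG]
    have : 1 - (1 - x / h) = x / h := by ring
    rw [this]
    positivity
  rw [hprod]
  calc ENNReal.ofReal (h * (2 + s) / 6) * A
      = ∫⁻ x in Ioo (0 : ℝ) h, ENNReal.ofReal (G x) * A := by
        have hmG : Measurable fun x => ENNReal.ofReal (G x) :=
          ENNReal.measurable_ofReal.comp hGc.measurable
        rw [lintegral_mul_const _ hmG, hint]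
    _ ≤ ∫⁻ x in Ioo (0 : ℝ) h, volume {v | x ≤ f v} :=
        setLIntegral_mono' measurableSet_Ioo hpt'
    _ ≤ ∫⁻ x in Ioi (0 : ℝ), volume {v | x ≤ f v} :=
        lintegral_mono_set Ioo_subset_Ioi_self

/-- The projection of a body. -/
def pr (L : Set P3) : Set (ℝ × ℝ) := Prod.fst '' L

/-- Standing assumptions on a body. -/
structure IsBody (L : Set P3) : Prop where
  convex : Convex ℝ L
  compact : IsCompact L
  int_nonempty : (interior L).Nonempty

namespace IsBody

variable {L : Set P3} (hL : IsBody L)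
include hL

lemma pr_convex : Convex ℝ (pr L) := hL.convex.linear_image (LinearMap.fst ℝ (ℝ × ℝ) ℝ)

lemma pr_compact : IsCompact (pr L) := hL.compact.image continuous_fst

lemma pr_int_nonempty : (interior (pr L)).Nonempty := by
  obtain ⟨x, hx⟩ := hL.int_nonempty
  refine ⟨x.1, ?_⟩
  have hop : IsOpen (Prod.fst '' interior L) := isOpenMap_fst _ isOpen_interior
  exact (interior_maximal (image_mono interior_subset) hop) ⟨x, hx, rfl⟩

lemma measurableSet : MeasurableSet L := hL.compact.isClosed.measurableSet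

lemma volume_ne_top : volume L ≠ ⊤ := hL.compact.measure_lt_top.ne

lemma volume_pos : 0 < volume L := by
  obtain ⟨x, hx⟩ := hL.int_nonempty
  exact Measure.measure_pos_of_mem_nhds _ (mem_interior_iff_mem_nhds.mp hx)

lemma pr_volume_ne_top : volume (pr L) ≠ ⊤ := hL.pr_compact.measure_lt_top.ne

lemma pr_volume_pos : 0 < volume (pr L) := by
  obtain ⟨x, hx⟩ := hL.pr_int_nonempty
  exact Measure.measure_pos_of_mem_nhds _ (mem_interior_iff_mem_nhds.mp hx)

/-- The difference body of the projection. -/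
lemma diff_convex : Convex ℝ (pr L - pr L) := hL.pr_convex.sub hL.pr_convex

lemma diff_compact : IsCompact (pr L - pr L) := by
  have h : pr L - pr L = (fun p : (ℝ × ℝ) × (ℝ × ℝ) => p.1 - p.2) '' (pr L ×ˢ pr L) := by
    ext z
    constructor
    · rintro ⟨a, ha, b, hb, rfl⟩
      exact ⟨(a, b), ⟨ha, hb⟩, rfl⟩
    · rintro ⟨⟨a, b⟩, ⟨ha, hb⟩, rfl⟩
      exact ⟨a, ha, b, hb, rfl⟩
  rw [h]
  exact (hL.pr_compact.prod hL.pr_compact).image (continuous_fst.sub continuous_snd)

lemma diff_nhds : pr L - pr L ∈ 𝓝 (0 : ℝ × ℝ) := by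
  obtain ⟨x, hx⟩ := hL.pr_int_nonempty
  have h1 : pr L ∈ 𝓝 x := mem_interior_iff_mem_nhds.mp hx
  have h2 : (fun y => y + x) ⁻¹' pr L ∈ 𝓝 (0 : ℝ × ℝ) := by
    apply (continuous_id.add continuous_const).continuousAt.preimage_mem_nhds
    simpa using h1
  refine Filter.mem_of_superset h2 ?_
  intro y hy
  exact ⟨y + x, hy, x, interior_subset hx, by simp⟩

omit hL in
lemma diff_symm : ∀ d ∈ pr L - pr L, -d ∈ pr L - pr L := by
  rintro _ ⟨a, ha, b, hb, rfl⟩
  exact ⟨b, hb, a, ha, by simp⟩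

lemma section_ne_top (y : ℝ × ℝ) : volume (Prod.mk y ⁻¹' L) ≠ ⊤ := by
  have hsub : Prod.mk y ⁻¹' L ⊆ Prod.snd '' L := fun t ht => ⟨(y, t), ht, rfl⟩
  exact ((measure_mono hsub).trans_lt (hL.compact.image continuous_snd).measure_lt_top).ne

lemma section_eq_Icc {y : ℝ × ℝ} (hy : y ∈ pr L) :
    ∃ a b, a ≤ b ∧ Prod.mk y ⁻¹' L = Icc a b := by
  have hconv := section_convex hL.convex y
  have hne : (Prod.mk y ⁻¹' L).Nonempty := by
    obtain ⟨⟨v, t⟩, hp, hv'⟩ := hy
    simp only at hv'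
    subst hv'
    exact ⟨t, hp⟩
  have hcomp : IsCompact (Prod.mk y ⁻¹' L) := by
    refine (hL.compact.image continuous_snd).of_isClosed_subset
      (hL.compact.isClosed.preimage (by fun_prop)) ?_
    intro t ht
    exact ⟨(y, t), ht, rfl⟩
  have hconn : IsConnected (Prod.mk y ⁻¹' L) := ⟨hne, hconv.isPreconnected⟩
  refine ⟨_, _, ?_, eq_Icc_of_connected_compact hconn hcomp⟩
  exact Real.sInf_le_sSup _ hcomp.bddBelow hcomp.bddAbove

lemma section_ordConnected {y : ℝ × ℝ} {a b : ℝ} (ha : (y, a) ∈ L) (hb : (y, b) ∈ L) :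
    Icc a b ⊆ Prod.mk y ⁻¹' L :=
  (section_convex hL.convex y).ordConnected.out ha hb

/-- **Hull bound.** Chords of length `c` over `y₀ + v` and `y₀ - v` force the volume of `L` to be at
least `c (1 + gauge (D - D) v) |D| / 3`. -/
lemma hull_volume {y₀ v : ℝ × ℝ} {b₁ b₂ c : ℝ} (hc : 0 < c)
    (h1 : (y₀ + v, b₁) ∈ L) (h1' : (y₀ + v, b₁ + c) ∈ L)
    (h2 : (y₀ - v, b₂) ∈ L) (h2' : (y₀ - v, b₂ + c) ∈ L) :
    ENNReal.ofReal (c * (1 + gauge (pr L - pr L) v) / 3) * volume (pr L) ≤ volume L := by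
  set D := pr L with hD
  obtain ⟨ν, hν1, hν2⟩ := exists_dual hL.diff_convex hL.diff_nhds diff_symm v
  set N := gauge (D - D) v with hN
  have hN0 : 0 ≤ N := gauge_nonneg _
  -- range of the functional on `D`
  have hDne : D.Nonempty := (hL.pr_int_nonempty).mono interior_subset
  have hνc : Continuous ν := LinearMap.continuous_of_finiteDimensional _
  obtain ⟨d₁, hd₁, hmin⟩ := hL.pr_compact.exists_isMinOn hDne hνc.continuousOn
  obtain ⟨d₂, hd₂, hmax⟩ := hL.pr_compact.exists_isMaxOn hDne hνc.continuousOn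
  set m₁ := ν d₁ with hm₁
  set m₂ := ν d₂ with hm₂
  have hm : m₂ - m₁ ≤ 1 := by
    have := (abs_le.mp (hν1 (d₂ - d₁) ⟨d₂, hd₂, d₁, hd₁, rfl⟩)).2
    simpa [hm₁, hm₂] using this
  set K₀ := fun d => 2 * ν d - (m₁ + m₂) with hK₀
  have hK₀1 : ∀ d ∈ D, |K₀ d| ≤ 1 := by
    intro d hd
    have h3 : m₁ ≤ ν d := hmin hd
    have h4 : ν d ≤ m₂ := hmax hd
    rw [abs_le]
    simp only [hK₀]
    constructor <;> linarith
  have hmeas : MeasurableSet L := hL.measurableSet
  have key := layer_cake (W := L) hmeas hL.section_ne_top hc (s := 2 * N) (by positivity)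
    (A := volume D) (by
      intro τ hτ0 hτ1
      set κ := 2 * (1 - τ) / τ with hκ
      let T : (ℝ × ℝ) →ₗ[ℝ] (ℝ × ℝ) := τ • LinearMap.transvection ν (κ • v)
      have hT : ∀ d, T d = τ • d + (2 * (1 - τ) * ν d) • v := by
        intro d
        simp only [T, LinearMap.smul_apply, LinearMap.transvection.apply, smul_add, smul_smul]
        congr 2
        rw [hκ]
        field_simp
      have hdet : LinearMap.det T = τ * (τ + (1 - τ) * (2 * N)) := by
        simp only [T, LinearMap.det_smul, LinearMap.transvection.det, map_smul, smul_eq_mul]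
        have hfr : Module.finrank ℝ (ℝ × ℝ) = 2 := by simp
        rw [hfr, hν2, hκ]
        field_simp
      have hnn : 0 ≤ τ * (τ + (1 - τ) * (2 * N)) := by
        have h1τ : 0 ≤ 1 - τ := by linarith
        positivity
      set z₀ : ℝ × ℝ := (1 - τ) • (y₀ - (m₁ + m₂) • v) with hz₀
      have hsub : (fun d => z₀ + T d) '' D ⊆
          {y : ℝ × ℝ | ENNReal.ofReal ((1 - τ) * c) ≤ volume (Prod.mk y ⁻¹' L)} := by
        rintro _ ⟨d, ⟨⟨d', t⟩, hp, hd'⟩, rfl⟩
        simp only at hd'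
        subst hd'
        have hκ1 := abs_le.mp (hK₀1 d' ⟨(d', t), hp, rfl⟩)
        set k := K₀ d' with hk
        have hkey : ∀ r : ℝ, 0 ≤ r → r ≤ 1 →
            (z₀ + T d', (1 - τ) * ((1 + k) / 2 * b₁ + (1 - k) / 2 * b₂ + r * c) + τ * t) ∈ L := by
          intro r hr0 hr1
          have hA : (y₀ + v, b₁ + r * c) ∈ L := by
            have := hL.section_ordConnected h1 h1'
            exact this ⟨by nlinarith, by nlinarith⟩
          have hB : (y₀ - v, b₂ + r * c) ∈ L := by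
            have := hL.section_ordConnected h2 h2'
            exact this ⟨by nlinarith, by nlinarith⟩
          have hM : ((1 + k) / 2) • ((y₀ + v, b₁ + r * c) : P3) + ((1 - k) / 2) • (y₀ - v, b₂ + r * c) ∈ L :=
            hL.convex hA hB (by linarith) (by linarith) (by ring)
          have hF : (1 - τ) • (((1 + k) / 2) • ((y₀ + v, b₁ + r * c) : P3) + ((1 - k) / 2) • (y₀ - v, b₂ + r * c)) +
              τ • ((d', t) : P3) ∈ L :=
            hL.convex hM hp (by linarith) hτ0.le (by ring)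
          convert hF using 1
          ext
          · simp only [hT, hz₀, hk, hK₀, Prod.fst_add, Prod.smul_fst, Prod.fst_sub, smul_eq_mul]
            ring
          · simp only [hT, hz₀, hk, hK₀, Prod.fst_add, Prod.smul_fst, Prod.snd_add, Prod.smul_snd,
              Prod.snd_sub, smul_eq_mul]
            ring
          · simp only [Prod.snd_add, Prod.smul_snd, smul_eq_mul]
            ring
        have hI := hL.section_ordConnected (hkey 0 le_rfl zero_le_one) (hkey 1 zero_le_one le_rfl)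
        simp only [mem_ofPred_eq]
        refine le_trans ?_ (measure_mono hI)
        rw [Real.volume_Icc]
        apply ENNReal.ofReal_le_ofReal
        apply le_of_eq
        ring
      calc ENNReal.ofReal (τ * (τ + (1 - τ) * (2 * N))) * volume D
          = volume ((fun d => z₀ + T d) '' D) := by
            have : (fun d => z₀ + T d) '' D = (fun p => z₀ + p) '' (T '' D) := by
              rw [image_image]
            rw [this, Set.image_add_left, measure_preimage_add, Measure.addHaar_image_linearMap,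
              hdet, abs_of_nonneg hnn]
        _ ≤ _ := measure_mono hsub)
  have e : c * (2 + 2 * N) / 6 = c * (1 + N) / 3 := by ring
  rwa [e] at key

/-- Every chord is at most `3 vol(L) / |D|`. -/
lemma chord_volume {y₀ : ℝ × ℝ} {b c : ℝ} (hc : 0 < c) (h1 : (y₀, b) ∈ L) (h2 : (y₀, b + c) ∈ L) :
    ENNReal.ofReal (c / 3) * volume (pr L) ≤ volume L := by
  have h := hL.hull_volume (y₀ := y₀) (v := 0) hc (by simpa using h1) (by simpa using h2)
    (by simpa using h1) (by simpa using h2)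
  simpa using h

end IsBody

/-- The centrally symmetric part of `L` about `p`. -/
def mset (L : Set P3) (p : P3) : Set P3 := L ∩ {q | (2 : ℝ) • p - q ∈ L}

/-- The projection of `mset`, recentred. -/
def qset (L : Set P3) (p : P3) : Set (ℝ × ℝ) := {y | ∃ w : ℝ, (p.1 + y, w) ∈ mset L p}

lemma mset_convex {L : Set P3} (hconv : Convex ℝ L) (p : P3) : Convex ℝ (mset L p) := by
  refine hconv.inter ?_
  intro a ha b hb u v hu hv huv
  simp only [mem_ofPred_eq] at ha hb ⊢
  have h := hconv ha hb hu hv huv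
  convert h using 1
  have e : (2 : ℝ) • p = (u + v) • ((2 : ℝ) • p) := by rw [huv, one_smul]
  rw [add_smul] at e
  rw [smul_sub, smul_sub]
  nth_rewrite 1 [e]
  abel

lemma mset_symm {L : Set P3} {p q : P3} (h : q ∈ mset L p) : (2 : ℝ) • p - q ∈ mset L p := by
  refine ⟨h.2, ?_⟩
  simp only [mem_ofPred_eq]
  have : (2 : ℝ) • p - ((2 : ℝ) • p - q) = q := by abel
  rw [this]
  exact h.1

lemma mset_isClosed {L : Set P3} (hL : IsClosed L) (p : P3) : IsClosed (mset L p) := by
  refine hL.inter ?_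
  exact hL.preimage (f := fun q => (2 : ℝ) • p - q) (by fun_prop)

lemma qset_eq_image (L : Set P3) (p : P3) : qset L p = (fun q : P3 => q.1 - p.1) '' mset L p := by
  ext y
  constructor
  · rintro ⟨w, hw⟩
    exact ⟨(p.1 + y, w), hw, by simp⟩
  · rintro ⟨⟨a, w⟩, hq, rfl⟩
    refine ⟨w, ?_⟩
    simpa using hq

lemma qset_convex {L : Set P3} (hconv : Convex ℝ L) (p : P3) : Convex ℝ (qset L p) := by
  rintro a ⟨w, hw⟩ b ⟨w', hw'⟩ u v hu hv huv
  refine ⟨u * w + v * w', ?_⟩
  have h := mset_convex hconv p hw hw' hu hv huv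
  convert h using 1
  ext
  · simp only [Prod.fst_add, Prod.smul_fst, smul_eq_mul, Prod.snd_add, Prod.smul_snd]
    have : u * p.1.1 + v * p.1.1 = p.1.1 := by rw [← add_mul, huv, one_mul]
    nlinarith
  · simp only [Prod.fst_add, Prod.smul_fst, smul_eq_mul, Prod.snd_add, Prod.smul_snd]
    have : u * p.1.2 + v * p.1.2 = p.1.2 := by rw [← add_mul, huv, one_mul]
    nlinarith
  · simp only [Prod.snd_add, Prod.smul_snd, smul_eq_mul]

lemma qset_symm {L : Set P3} {p : P3} : ∀ y ∈ qset L p, -y ∈ qset L p := by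
  rintro y ⟨w, hw⟩
  refine ⟨2 * p.2 - w, ?_⟩
  have h := mset_symm hw
  convert h using 1
  ext
  · simp only [Prod.fst_add, Prod.fst_neg, Prod.fst_sub, Prod.smul_fst, smul_eq_mul, Prod.snd_add,
      Prod.snd_neg, Prod.snd_sub, Prod.smul_snd]
    ring
  · simp only [Prod.fst_add, Prod.fst_neg, Prod.fst_sub, Prod.smul_fst, smul_eq_mul, Prod.snd_add,
      Prod.snd_neg, Prod.snd_sub, Prod.smul_snd]
    ring
  · simp only [Prod.snd_sub, Prod.smul_snd, smul_eq_mul]

lemma qset_compact {L : Set P3} (hL : IsCompact L) (p : P3) : IsCompact (qset L p) := by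
  rw [qset_eq_image]
  have hM : IsCompact (mset L p) := hL.of_isClosed_subset (mset_isClosed hL.isClosed p) inter_subset_left
  exact hM.image (by fun_prop)

/-- The Fubini bound for a set with small vertical sections. -/
lemma volume_mset_le {L : Set P3} (hL : IsCompact L) {p : P3} {r : ℝ}
    (hdiam : ∀ y w w', (y, w) ∈ mset L p → (y, w') ∈ mset L p → |w - w'| ≤ 2 * r) :
    volume (mset L p) ≤ ENNReal.ofReal (2 * r) * volume (qset L p) := by
  have hM : MeasurableSet (mset L p) := (mset_isClosed hL.isClosed p).measurableSet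
  have himg : (fun y => p.1 + y) '' qset L p = Prod.fst '' mset L p := by
    ext y
    constructor
    · rintro ⟨z, ⟨w, hw⟩, rfl⟩
      exact ⟨_, hw, rfl⟩
    · rintro ⟨⟨a, w⟩, hq, rfl⟩
      refine ⟨a - p.1, ⟨w, by simpa using hq⟩, by simp⟩
  have hvol : volume (Prod.fst '' mset L p) = volume (qset L p) := by
    rw [← himg, Set.image_add_left, measure_preimage_add]
  have hMcomp : IsCompact (mset L p) :=
    hL.of_isClosed_subset (mset_isClosed hL.isClosed p) inter_subset_left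
  have hPm : MeasurableSet (Prod.fst '' mset L p) := (hMcomp.image continuous_fst).isClosed.measurableSet
  rw [Measure.volume_eq_prod, Measure.prod_apply hM, ← hvol]
  calc ∫⁻ y, volume (Prod.mk y ⁻¹' mset L p)
      ≤ ∫⁻ y, (Prod.fst '' mset L p).indicator (fun _ => ENNReal.ofReal (2 * r)) y := by
        refine lintegral_mono fun y => ?_
        by_cases hy : y ∈ Prod.fst '' mset L p
        · rw [indicator_of_mem hy]
          refine (Real.volume_le_diam _).trans ?_
          refine Metric.ediam_le ?_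
          intro w hw w' hw'
          rw [edist_dist, Real.dist_eq]
          exact ENNReal.ofReal_le_ofReal (hdiam y w w' hw hw')
        · rw [indicator_of_notMem hy]
          have : Prod.mk y ⁻¹' mset L p = ∅ := by
            ext w
            simp only [mem_preimage, mem_empty_iff_false, iff_false]
            exact fun h => hy ⟨(y, w), h, rfl⟩
          rw [this]
          simp
    _ = ENNReal.ofReal (2 * r) * volume (Prod.fst '' mset L p) := by
        rw [lintegral_indicator hPm]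
        simp

/-- A convex symmetric set of positive measure is a neighbourhood of the origin. -/
lemma nhds_of_symm {Q : Set (ℝ × ℝ)} (hconv : Convex ℝ Q) (hsymm : ∀ y ∈ Q, -y ∈ Q)
    (hpos : volume Q ≠ 0) : Q ∈ 𝓝 (0 : ℝ × ℝ) := by
  have hint : (interior Q).Nonempty := by
    by_contra hcon
    rw [not_nonempty_iff_eq_empty] at hcon
    apply hpos
    have hfr := Convex.addHaar_frontier (volume : Measure (ℝ × ℝ)) hconv
    have hcl : closure Q = frontier Q := by
      rw [frontier, hcon, Set.sdiff_empty]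
    rw [← hcl] at hfr
    exact measure_mono_null subset_closure hfr
  obtain ⟨x, hx⟩ := hint
  have hx' : Q ∈ 𝓝 x := mem_interior_iff_mem_nhds.mp hx
  have hnx : Q ∈ 𝓝 (-x) := by
    have h1 : (fun y => -y) ⁻¹' Q ∈ 𝓝 (-x) :=
      continuous_neg.continuousAt.preimage_mem_nhds (by simpa using hx')
    exact Filter.mem_of_superset h1 (fun y hy => by simpa using hsymm _ hy)
  have hi : (0 : ℝ × ℝ) ∈ interior Q := by
    have hconvi := hconv.interior
    have h1 := hconvi (mem_interior_iff_mem_nhds.mpr hx') (mem_interior_iff_mem_nhds.mpr hnx)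
      (show (0 : ℝ) ≤ 1 / 2 by norm_num) (show (0 : ℝ) ≤ 1 / 2 by norm_num) (by norm_num)
    simpa using h1
  exact mem_interior_iff_mem_nhds.mp hi

/-- The area of a set squeezed by a functional. -/
lemma area_transvection {D Q : Set (ℝ × ℝ)} (hD : Convex ℝ D) {y₀ d₁ d₂ : ℝ × ℝ} (hd₁ : d₁ ∈ D)
    (hd₂ : d₂ ∈ D) (hQ : ∀ y ∈ Q, y₀ + y ∈ D) (f : Dual ℝ (ℝ × ℝ)) (hf : ∀ y ∈ Q, |f y| ≤ 1)
    (hfw : 0 ≤ f (d₁ - d₂)) :
    ENNReal.ofReal (1 / 4 * (1 + f (d₁ - d₂) / 2)) * volume Q ≤ volume D := by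
  let T : (ℝ × ℝ) →ₗ[ℝ] (ℝ × ℝ) := (1 / 2 : ℝ) • LinearMap.transvection f ((1 / 2 : ℝ) • (d₁ - d₂))
  have hT : ∀ y, T y = (1 / 2 : ℝ) • y + (1 / 4 * f y) • (d₁ - d₂) := by
    intro y
    simp only [T, LinearMap.smul_apply, LinearMap.transvection.apply, smul_add, smul_smul]
    module
  have hdet : LinearMap.det T = 1 / 4 * (1 + f (d₁ - d₂) / 2) := by
    simp only [T, LinearMap.det_smul, LinearMap.transvection.det, map_smul, smul_eq_mul]
    have hfr : Module.finrank ℝ (ℝ × ℝ) = 2 := by simp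
    rw [hfr]
    ring
  have hnn : 0 ≤ 1 / 4 * (1 + f (d₁ - d₂) / 2) := by positivity
  set z₀ : ℝ × ℝ := (1 / 2 : ℝ) • y₀ + (1 / 4 : ℝ) • (d₁ + d₂) with hz₀
  have hsub : (fun y => z₀ + T y) '' Q ⊆ D := by
    rintro _ ⟨y, hy, rfl⟩
    have h1 := abs_le.mp (hf y hy)
    have hc : ((1 + f y) / 2) • d₁ + ((1 - f y) / 2) • d₂ ∈ D :=
      hD hd₁ hd₂ (by linarith) (by linarith) (by ring)
    have hm := hD (hQ y hy) hc (show (0 : ℝ) ≤ 1 / 2 by norm_num) (show (0 : ℝ) ≤ 1 / 2 by norm_num)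
      (by norm_num)
    convert hm using 1
    simp only [hT, hz₀]
    module
  calc ENNReal.ofReal (1 / 4 * (1 + f (d₁ - d₂) / 2)) * volume Q
      = volume ((fun y => z₀ + T y) '' Q) := by
        have : (fun y => z₀ + T y) '' Q = (fun p => z₀ + p) '' (T '' Q) := by
          rw [image_image]
        rw [this, Set.image_add_left, measure_preimage_add, Measure.addHaar_image_linearMap,
          hdet, abs_of_nonneg hnn]
    _ ≤ _ := measure_mono hsub

/-- Asymmetric form of the common point lemma. -/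
lemma common_point_aux {L : Set P3} (hL : IsBody L) {y₀ : ℝ × ℝ} {Q Q' : Set (ℝ × ℝ)}
    (hQc : Convex ℝ Q) (hQs : ∀ y ∈ Q, -y ∈ Q) (hQk : IsCompact Q)
    (hQ'c : Convex ℝ Q') (hQ'k : IsCompact Q') (hQn : Q ∈ 𝓝 (0 : ℝ × ℝ)) (hQ'n : Q' ∈ 𝓝 (0 : ℝ × ℝ))
    (hQD : ∀ y ∈ Q, y₀ + y ∈ pr L) {A : ℝ} (hA0 : 0 ≤ A) (hA : ENNReal.ofReal A ≤ volume Q)
    {e : ℝ × ℝ} (he : e ≠ 0) (hle : gauge Q' e ≤ gauge Q e) :
    ∃ v, v ∈ Q ∧ v ∈ Q' ∧ A ≤ 8 * gauge (pr L - pr L) v * (volume (pr L)).toReal := by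
  have habsQ : Absorbent ℝ Q := absorbent_nhds_zero hQn
  have hbQ : Bornology.IsVonNBounded ℝ Q := (NormedSpace.isVonNBounded_iff ℝ).mpr hQk.isBounded
  have hg : 0 < gauge Q e := (gauge_pos habsQ hbQ).mpr he
  set g := gauge Q e with hgdef
  set v := g⁻¹ • e with hv
  have hvne : v ≠ 0 := smul_ne_zero (inv_ne_zero hg.ne') he
  have hgv : gauge Q v = 1 := by
    rw [hv, gauge_smul_of_nonneg (inv_pos.mpr hg).le, smul_eq_mul, ← hgdef, inv_mul_cancel₀ hg.ne']
  have hvQ : v ∈ Q := by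
    have := (gauge_le_one_iff_mem_closure hQc hQn).mp hgv.le
    rwa [hQk.isClosed.closure_eq] at this
  have hvQ' : v ∈ Q' := by
    have hle' : gauge Q' v ≤ 1 := by
      rw [hv, gauge_smul_of_nonneg (inv_pos.mpr hg).le, smul_eq_mul, inv_mul_le_iff₀ hg, mul_one]
      exact hle
    have := (gauge_le_one_iff_mem_closure hQ'c hQ'n).mp hle'
    rwa [hQ'k.isClosed.closure_eq] at this
  refine ⟨v, hvQ, hvQ', ?_⟩
  obtain ⟨f, hf1, hf2⟩ := exists_dual hQc hQn hQs v
  rw [hgv] at hf2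
  set N := gauge (pr L - pr L) v with hN
  have habsD : Absorbent ℝ (pr L - pr L) := absorbent_nhds_zero hL.diff_nhds
  have hbD : Bornology.IsVonNBounded ℝ (pr L - pr L) :=
    (NormedSpace.isVonNBounded_iff ℝ).mpr hL.diff_compact.isBounded
  have hNpos : 0 < N := (gauge_pos habsD hbD).mpr hvne
  have hwmem : N⁻¹ • v ∈ pr L - pr L := by
    have h1 : gauge (pr L - pr L) (N⁻¹ • v) ≤ 1 := by
      rw [gauge_smul_of_nonneg (inv_pos.mpr hNpos).le, smul_eq_mul, ← hN, inv_mul_cancel₀ hNpos.ne']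
    have := (gauge_le_one_iff_mem_closure hL.diff_convex hL.diff_nhds).mp h1
    rwa [hL.diff_compact.isClosed.closure_eq] at this
  obtain ⟨d₁, hd₁, d₂, hd₂, hw⟩ := hwmem
  have hfw : f (d₁ - d₂) = N⁻¹ := by
    have : d₁ - d₂ = N⁻¹ • v := hw
    rw [this, map_smul, hf2, smul_eq_mul, mul_one]
  have harea := area_transvection hL.pr_convex hd₁ hd₂ hQD f hf1 (by rw [hfw]; positivity)
  rw [hfw] at harea
  have hDtop := hL.pr_volume_ne_top
  set AD := (volume (pr L)).toReal with hAD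
  have hADe : ENNReal.ofReal AD = volume (pr L) := ENNReal.ofReal_toReal hDtop
  have hAD0 : 0 ≤ AD := ENNReal.toReal_nonneg
  have h3 : ENNReal.ofReal (1 / 4 * (1 + N⁻¹ / 2) * A) ≤ ENNReal.ofReal AD := by
    rw [ENNReal.ofReal_mul (by positivity), hADe]
    exact (mul_le_mul_right hA _).trans harea
  have h4 := (ENNReal.ofReal_le_ofReal_iff hAD0).mp h3
  have h5 : A * N⁻¹ / 8 ≤ AD := by
    have : A * N⁻¹ / 8 ≤ 1 / 4 * (1 + N⁻¹ / 2) * A := by
      have : 0 ≤ A := hA0
      nlinarith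
    linarith
  have h6 : A ≤ 8 * N * AD := by
    have h7 : A * N⁻¹ * N = A := by field_simp
    nlinarith
  exact h6

/-- Symmetric pieces centred near the end of a section have short vertical chords. -/
lemma mset_diam {L : Set P3} (hL : IsBody L) {y₀ : ℝ × ℝ} {z zm zp r : ℝ}
    (hsec : Prod.mk y₀ ⁻¹' L = Icc zm zp) (hz : z ≤ zm + r ∨ zp - r ≤ z) {y : ℝ × ℝ} {w w' : ℝ}
    (hw : (y, w) ∈ mset L (y₀, z)) (hw' : (y, w') ∈ mset L (y₀, z)) : |w - w'| ≤ 2 * r := by
  have hu : ∀ a b : ℝ, (y, a) ∈ mset L (y₀, z) → (y, b) ∈ mset L (y₀, z) →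
      z + (a - b) / 2 ∈ Icc zm zp := by
    intro a b ha hb
    have h1 := ha.1
    have h2 : (2 : ℝ) • ((y₀, z) : P3) - (y, b) ∈ L := hb.2
    have h3 := hL.convex h1 h2 (show (0 : ℝ) ≤ 1 / 2 by norm_num) (show (0 : ℝ) ≤ 1 / 2 by norm_num)
      (by norm_num)
    rw [← hsec]
    show (y₀, z + (a - b) / 2) ∈ L
    convert h3 using 1
    ext
    · simp only [Prod.fst_add, Prod.smul_fst, Prod.fst_sub, smul_eq_mul]
      ring
    · simp only [Prod.fst_add, Prod.smul_fst, Prod.fst_sub, Prod.snd_add, Prod.smul_snd,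
        Prod.snd_sub, smul_eq_mul]
      ring
    · simp only [Prod.snd_add, Prod.smul_snd, Prod.snd_sub, smul_eq_mul]
      ring
  have h1 := hu w w' hw hw'
  have h2 := hu w' w hw' hw
  rw [abs_le]
  rcases hz with hz | hz
  · constructor
    · linarith [h1.1]
    · linarith [h2.1]
  · constructor
    · linarith [h2.2]
    · linarith [h1.2]

/-- A chord cannot have deep points near both of its ends, when it is nearly longest and the body
is nearly extremal. -/
lemma no_two_ends {L : Set P3} (hL : IsBody L) {y₀ : ℝ × ℝ} {zm zp z₁ z₂ ℓ s δ : ℝ}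
    (hs0 : 0 < s) (hs1 : s ≤ 1 / 100) (hδ : 200 * s ^ 2 ≤ δ) (hℓ : 0 < ℓ)
    (hsec : Prod.mk y₀ ⁻¹' L = Icc zm zp)
    (hchord : ∀ y a b, (y, a) ∈ L → (y, b) ∈ L → b - a ≤ ℓ)
    (hlong : (1 - s) * ℓ < zp - zm)
    (hq : 3 * (1 - s) * (volume L).toReal < ℓ * (volume (pr L)).toReal)
    (hq' : ℓ * (volume (pr L)).toReal ≤ 3 * (volume L).toReal)
    (h1 : (y₀, z₁) ∈ deep L δ) (h2 : (y₀, z₂) ∈ deep L δ)
    (hz1 : z₁ ≤ zm + s * ℓ) (hz2 : zp - s * ℓ ≤ z₂) : False := by
  have hδ0 : 0 < δ := lt_of_lt_of_le (by positivity) hδ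
  have hV0 : 0 < (volume L).toReal := ENNReal.toReal_pos hL.volume_pos.ne' hL.volume_ne_top
  have hD0 : 0 < (volume (pr L)).toReal :=
    ENNReal.toReal_pos hL.pr_volume_pos.ne' hL.pr_volume_ne_top
  have hVe : ENNReal.ofReal (volume L).toReal = volume L := ENNReal.ofReal_toReal hL.volume_ne_top
  set V := (volume L).toReal with hV
  set AD := (volume (pr L)).toReal with hAD
  set r := s * ℓ with hr
  have hr0 : 0 < r := by positivity
  set A := δ * V / r with hA
  have hA0 : 0 < A := by positivity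
  -- the sets `Q`
  have hQvol : ∀ z : ℝ, (y₀, z) ∈ deep L δ → (z ≤ zm + r ∨ zp - r ≤ z) →
      ENNReal.ofReal A ≤ volume (qset L (y₀, z)) := by
    intro z hz hz'
    have h3 := volume_mset_le (p := (y₀, z)) (r := r) hL.compact (fun y w w' hw hw' =>
      mset_diam hL hsec hz' hw hw')
    have h4 : ENNReal.ofReal (2 * δ) * volume L ≤ volume (mset L (y₀, z)) := hz.2
    have h5 : ENNReal.ofReal (2 * r) * ENNReal.ofReal A = ENNReal.ofReal (2 * δ) * volume L := by
      rw [← ENNReal.ofReal_mul (by positivity), ← hVe, ← ENNReal.ofReal_mul (by positivity)]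
      congr 1
      rw [hA]
      field_simp
    have h6 : ENNReal.ofReal (2 * r) * ENNReal.ofReal A ≤
        ENNReal.ofReal (2 * r) * volume (qset L (y₀, z)) := by
      rw [h5]
      exact h4.trans h3
    exact (ENNReal.mul_le_mul_iff_right (by simpa using hr0) ENNReal.ofReal_ne_top).mp h6
  have hQpos : ∀ z : ℝ, (y₀, z) ∈ deep L δ → (z ≤ zm + r ∨ zp - r ≤ z) →
      volume (qset L (y₀, z)) ≠ 0 := by
    intro z hz hz' h0
    have := hQvol z hz hz'
    rw [h0] at this
    simp only [nonpos_iff_eq_zero, ENNReal.ofReal_eq_zero] at this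
    linarith
  have hQD : ∀ z : ℝ, ∀ y ∈ qset L (y₀, z), y₀ + y ∈ pr L := by
    rintro z y ⟨w, hw⟩
    exact ⟨_, hw.1, rfl⟩
  have h1' : z₁ ≤ zm + r ∨ zp - r ≤ z₁ := Or.inl hz1
  have h2' : z₂ ≤ zm + r ∨ zp - r ≤ z₂ := Or.inr hz2
  have hconv := hL.convex
  have hQ1n := nhds_of_symm (qset_convex hconv (y₀, z₁)) qset_symm (hQpos z₁ h1 h1')
  have hQ2n := nhds_of_symm (qset_convex hconv (y₀, z₂)) qset_symm (hQpos z₂ h2 h2')
  have hcomm : ∃ v, v ∈ qset L (y₀, z₁) ∧ v ∈ qset L (y₀, z₂) ∧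
      A ≤ 8 * gauge (pr L - pr L) v * AD := by
    have he : ((1 : ℝ), (0 : ℝ)) ≠ 0 := by simp
    rcases le_total (gauge (qset L (y₀, z₂)) ((1 : ℝ), (0 : ℝ)))
      (gauge (qset L (y₀, z₁)) ((1 : ℝ), (0 : ℝ))) with hle | hle
    · exact common_point_aux hL (qset_convex hconv _) qset_symm (qset_compact hL.compact _)
        (qset_convex hconv _) (qset_compact hL.compact _) hQ1n hQ2n (hQD z₁) hA0.le
        (hQvol z₁ h1 h1') he hle
    · obtain ⟨v, h3, h4, h5⟩ := common_point_aux hL (qset_convex hconv (y₀, z₂)) qset_symm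
        (qset_compact hL.compact _) (qset_convex hconv (y₀, z₁)) (qset_compact hL.compact _)
        hQ2n hQ1n (hQD z₂) hA0.le (hQvol z₂ h2 h2') he hle
      exact ⟨v, h4, h3, h5⟩
  obtain ⟨v, ⟨w₁, hw₁⟩, ⟨w₂, hw₂⟩, hbound⟩ := hcomm
  set N := gauge (pr L - pr L) v with hN
  have hN0 : 0 ≤ N := gauge_nonneg _
  have hp1 : (y₀ + v, w₁) ∈ L := hw₁.1
  have hp2 : (y₀ + v, w₂) ∈ L := hw₂.1
  have hm1 : (y₀ - v, 2 * z₁ - w₁) ∈ L := by
    have h3 : (2 : ℝ) • ((y₀, z₁) : P3) - (y₀ + v, w₁) ∈ L := hw₁.2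
    convert h3 using 1
    ext
    · simp only [Prod.fst_sub, Prod.smul_fst, Prod.fst_add, smul_eq_mul]
      ring
    · simp only [Prod.fst_sub, Prod.smul_fst, Prod.fst_add, Prod.snd_sub, Prod.smul_snd,
        Prod.snd_add, smul_eq_mul]
      ring
    · simp only [Prod.snd_sub, Prod.smul_snd, smul_eq_mul]
  have hm2 : (y₀ - v, 2 * z₂ - w₂) ∈ L := by
    have h3 : (2 : ℝ) • ((y₀, z₂) : P3) - (y₀ + v, w₂) ∈ L := hw₂.2
    convert h3 using 1
    ext
    · simp only [Prod.fst_sub, Prod.smul_fst, Prod.fst_add, smul_eq_mul]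
      ring
    · simp only [Prod.fst_sub, Prod.smul_fst, Prod.fst_add, Prod.snd_sub, Prod.smul_snd,
        Prod.snd_add, smul_eq_mul]
      ring
    · simp only [Prod.snd_sub, Prod.smul_snd, smul_eq_mul]
  set c := (1 - 6 * s) * ℓ with hc
  have hc0 : 0 < c := by
    have : 0 < 1 - 6 * s := by linarith
    positivity
  have hz12 : (1 - 3 * s) * ℓ < z₂ - z₁ := by
    have : r = s * ℓ := hr
    nlinarith
  have ha1 : w₂ - w₁ ≤ ℓ := hchord _ _ _ hp1 hp2
  have ha2 : (2 * z₂ - w₂) - (2 * z₁ - w₁) ≤ ℓ := hchord _ _ _ hm1 hm2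
  have hc1 : c ≤ w₂ - w₁ := by
    have : c = (1 - 6 * s) * ℓ := hc
    nlinarith
  have hc2 : c ≤ (2 * z₂ - w₂) - (2 * z₁ - w₁) := by
    have : c = (1 - 6 * s) * ℓ := hc
    nlinarith
  have hp1' : (y₀ + v, w₁ + c) ∈ L :=
    hL.section_ordConnected hp1 hp2 ⟨by linarith, by linarith⟩
  have hm1' : (y₀ - v, (2 * z₁ - w₁) + c) ∈ L :=
    hL.section_ordConnected hm1 hm2 ⟨by linarith, by linarith⟩
  have hhull := hL.hull_volume hc0 hp1 hp1' hm1 hm1'
  -- numerics
  have hhull' : c * (1 + N) / 3 * AD ≤ V := by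
    have hDe : ENNReal.ofReal AD = volume (pr L) := ENNReal.ofReal_toReal hL.pr_volume_ne_top
    rw [← hN, ← hDe, ← hVe, ← ENNReal.ofReal_mul (by positivity)] at hhull
    exact (ENNReal.ofReal_le_ofReal_iff hV0.le).mp hhull
  have hNlt : N < 8 * s := by
    by_contra hcon
    push Not at hcon
    have hs2 : (1 - 7 * s) * (1 + 8 * s) ≥ 1 := by nlinarith
    have h3 : 3 * V ≥ (1 - 6 * s) * (1 + N) * (ℓ * AD) := by
      have : c * (1 + N) / 3 * AD = (1 - 6 * s) * (1 + N) * (ℓ * AD) / 3 := by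
        rw [hc]; ring
      rw [this] at hhull'
      linarith
    have h4 : (1 - 6 * s) * (1 + N) ≥ (1 - 6 * s) * (1 + 8 * s) :=
      mul_le_mul_of_nonneg_left (by linarith) (by linarith)
    have h5 : (1 - 6 * s) * (1 + 8 * s) * (1 - s) ≥ 1 := by nlinarith
    have hpos : 0 < ℓ * AD := by positivity
    have h6 : 3 * V ≥ (1 - 6 * s) * (1 + 8 * s) * (ℓ * AD) :=
      h3.trans' (mul_le_mul_of_nonneg_right h4 hpos.le)
    have h7 : 3 * V * (1 - s) ≥ (1 - 6 * s) * (1 + 8 * s) * (1 - s) * (ℓ * AD) := by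
      have : 0 ≤ 1 - s := by linarith
      nlinarith
    have h8 : (1 - 6 * s) * (1 + 8 * s) * (1 - s) * (ℓ * AD) ≥ ℓ * AD :=
      le_mul_of_one_le_left hpos.le h5
    linarith
  have h3 : δ * V ≤ 8 * N * r * AD := by
    have h4 : A * r = δ * V := by
      rw [hA]
      field_simp
    have h5 : A * r ≤ 8 * N * AD * r := mul_le_mul_of_nonneg_right hbound hr0.le
    linarith
  have h4 : 8 * N * r * AD = 8 * N * s * (ℓ * AD) := by rw [hr]; ring
  have h5 : 8 * N * s * (ℓ * AD) ≤ 8 * N * s * (3 * V) :=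
    mul_le_mul_of_nonneg_left hq' (by positivity)
  have h6 : δ * V ≤ 8 * N * s * (3 * V) := by linarith
  have h7 : δ ≤ 24 * N * s := by
    have : δ * V ≤ (24 * N * s) * V := by linarith
    exact le_of_mul_le_mul_right this hV0
  have h8 : 24 * N * s < 24 * (8 * s) * s := by
    have : N * s < 8 * s * s := mul_lt_mul_of_pos_right hNlt hs0
    nlinarith
  nlinarith

/-- The longest chord. -/
lemma exists_longest {L : Set P3} (hL : IsBody L) :
    ∃ ℓ : ℝ, 0 < ℓ ∧ (∀ y a b, (y, a) ∈ L → (y, b) ∈ L → b - a ≤ ℓ) ∧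
      ℓ * (volume (pr L)).toReal ≤ 3 * (volume L).toReal := by
  set T : Set (P3 × P3) := (L ×ˢ L) ∩ {q | q.1.1 = q.2.1} with hT
  have hTc : IsCompact T := (hL.compact.prod hL.compact).inter_right
    (isClosed_eq (by fun_prop) (by fun_prop))
  obtain ⟨x, hx⟩ := hL.int_nonempty
  have hxL := interior_subset hx
  have hTne : T.Nonempty := ⟨(x, x), ⟨hxL, hxL⟩, rfl⟩
  obtain ⟨q, hq, hmax⟩ := hTc.exists_isMaxOn hTne
    (f := fun q : P3 × P3 => q.2.2 - q.1.2) (by fun_prop)
  set ℓ := q.2.2 - q.1.2 with hℓdef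
  have hle : ∀ y a b, (y, a) ∈ L → (y, b) ∈ L → b - a ≤ ℓ := by
    intro y a b ha hb
    exact hmax (show (((y, a), (y, b)) : P3 × P3) ∈ T from ⟨⟨ha, hb⟩, rfl⟩)
  have hpos : 0 < ℓ := by
    have hnh : L ∈ 𝓝 x := mem_interior_iff_mem_nhds.mp hx
    have hnh2 : (fun t : ℝ => ((x.1, x.2 + t) : P3)) ⁻¹' L ∈ 𝓝 (0 : ℝ) := by
      apply (Continuous.continuousAt (by fun_prop)).preimage_mem_nhds
      simpa using hnh
    obtain ⟨ε, hε, hball⟩ := Metric.mem_nhds_iff.mp hnh2
    have h1 : ((x.1, x.2 + ε / 2) : P3) ∈ L := hball (by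
      rw [Metric.mem_ball, dist_zero_right, Real.norm_eq_abs, abs_of_pos (by positivity)]
      linarith)
    have h2 := hle x.1 x.2 (x.2 + ε / 2) hxL h1
    linarith
  refine ⟨ℓ, hpos, hle, ?_⟩
  have hqL1 : q.1 ∈ L := hq.1.1
  have hqL2 : q.2 ∈ L := hq.1.2
  have heq : q.1.1 = q.2.1 := hq.2
  have h1 : (q.1.1, q.1.2) ∈ L := hqL1
  have h2 : (q.1.1, q.1.2 + ℓ) ∈ L := by
    have : ((q.1.1, q.1.2 + ℓ) : P3) = q.2 := by
      ext
      · simp [heq]
      · simp [heq]
      · simp [hℓdef]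
    rw [this]
    exact hqL2
  have h3 := hL.chord_volume hpos h1 h2
  have hV0 := ENNReal.toReal_nonneg (a := volume L)
  have hD0 := ENNReal.toReal_nonneg (a := volume (pr L))
  rw [← ENNReal.ofReal_toReal hL.pr_volume_ne_top, ← ENNReal.ofReal_toReal hL.volume_ne_top,
    ← ENNReal.ofReal_mul (by positivity)] at h3
  have h4 := (ENNReal.ofReal_le_ofReal_iff hV0).mp h3
  linarith

/-- **Section bound for the deep set.** -/
theorem deep_section_le {L : Set P3} (hL : IsBody L) {s δ : ℝ} (hs0 : 0 < s) (hs1 : s ≤ 1 / 100)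
    (hδ : 200 * s ^ 2 ≤ δ) (y : ℝ × ℝ) :
    volume (Prod.mk y ⁻¹' deep L δ) * volume (pr L) ≤ ENNReal.ofReal (3 * (1 - s)) * volume L := by
  obtain ⟨ℓ, hℓ, hchord, hq'⟩ := exists_longest hL
  have hDe : ENNReal.ofReal (volume (pr L)).toReal = volume (pr L) :=
    ENNReal.ofReal_toReal hL.pr_volume_ne_top
  have hVe : ENNReal.ofReal (volume L).toReal = volume L := ENNReal.ofReal_toReal hL.volume_ne_top
  have hV0 := ENNReal.toReal_nonneg (a := volume L)
  have hD0 := ENNReal.toReal_nonneg (a := volume (pr L))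
  set V := (volume L).toReal with hV
  set AD := (volume (pr L)).toReal with hAD
  have hs1' : 0 ≤ 1 - s := by linarith
  by_cases hy : y ∈ pr L
  swap
  · have : Prod.mk y ⁻¹' deep L δ = ∅ := by
      ext w
      simp only [mem_preimage, mem_empty_iff_false, iff_false]
      exact fun h => hy ⟨(y, w), h.1, rfl⟩
    rw [this]
    simp
  obtain ⟨zm, zp, hz, hsec⟩ := hL.section_eq_Icc hy
  have hsub : Prod.mk y ⁻¹' deep L δ ⊆ Icc zm zp := by
    intro w hw
    rw [← hsec]
    exact hw.1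
  have hzℓ : zp - zm ≤ ℓ := by
    have h1 : zm ∈ Prod.mk y ⁻¹' L := by rw [hsec]; exact ⟨le_rfl, hz⟩
    have h2 : zp ∈ Prod.mk y ⁻¹' L := by rw [hsec]; exact ⟨hz, le_rfl⟩
    exact hchord y _ _ h1 h2
  -- the main dichotomy
  have hmain : ℓ * AD ≤ 3 * (1 - s) * V ∨
      volume (Prod.mk y ⁻¹' deep L δ) ≤ ENNReal.ofReal ((1 - s) * ℓ) := by
    by_cases h1 : ℓ * AD ≤ 3 * (1 - s) * V
    · exact Or.inl h1
    push Not at h1
    right
    by_cases h2 : zp - zm ≤ (1 - s) * ℓ
    · refine (measure_mono hsub).trans ?_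
      rw [Real.volume_Icc]
      exact ENNReal.ofReal_le_ofReal h2
    push Not at h2
    by_cases hlow : ∃ z₁, z₁ ∈ Prod.mk y ⁻¹' deep L δ ∧ z₁ ≤ zm + s * ℓ
    · obtain ⟨z₁, hz₁, hz₁'⟩ := hlow
      have hup : ∀ w ∈ Prod.mk y ⁻¹' deep L δ, w < zp - s * ℓ := by
        intro w hw
        by_contra hcon
        push Not at hcon
        exact no_two_ends hL hs0 hs1 hδ hℓ hsec hchord h2 h1 hq' hz₁ hw hz₁' hcon
      have : Prod.mk y ⁻¹' deep L δ ⊆ Icc zm (zp - s * ℓ) :=
        fun w hw => ⟨(hsub hw).1, (hup w hw).le⟩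
      refine (measure_mono this).trans ?_
      rw [Real.volume_Icc]
      apply ENNReal.ofReal_le_ofReal
      nlinarith
    · push Not at hlow
      have : Prod.mk y ⁻¹' deep L δ ⊆ Icc (zm + s * ℓ) zp :=
        fun w hw => ⟨(hlow w hw).le, (hsub hw).2⟩
      refine (measure_mono this).trans ?_
      rw [Real.volume_Icc]
      apply ENNReal.ofReal_le_ofReal
      nlinarith
  rw [← hDe, ← hVe, ← ENNReal.ofReal_mul (by positivity)]
  rcases hmain with h1 | h1
  · have h2 : volume (Prod.mk y ⁻¹' deep L δ) ≤ ENNReal.ofReal ℓ := by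
      refine (measure_mono hsub).trans ?_
      rw [Real.volume_Icc]
      exact ENNReal.ofReal_le_ofReal hzℓ
    calc volume (Prod.mk y ⁻¹' deep L δ) * ENNReal.ofReal AD
        ≤ ENNReal.ofReal ℓ * ENNReal.ofReal AD := by gcongr
      _ = ENNReal.ofReal (ℓ * AD) := (ENNReal.ofReal_mul hℓ.le).symm
      _ ≤ _ := ENNReal.ofReal_le_ofReal h1
  · calc volume (Prod.mk y ⁻¹' deep L δ) * ENNReal.ofReal AD
        ≤ ENNReal.ofReal ((1 - s) * ℓ) * ENNReal.ofReal AD := by gcongr
      _ = ENNReal.ofReal ((1 - s) * ℓ * AD) := (ENNReal.ofReal_mul (by positivity)).symm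
      _ ≤ _ := by
        apply ENNReal.ofReal_le_ofReal
        nlinarith

end Vale.Agent.helper6.G
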