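import Mathlib

/-!
Inscribed fans in a planar convex compact set: a convex compact set `D ⊆ ℝ²` and a point `y₀` admit
`O(2^m)` triangles with common vertex `y₀` and other vertices in `D`, whose union misses at most
a `3 * 4^(-m)` fraction of the area of `D`.
-/

open MeasureTheory Set Module
open scoped ENNReal Pointwise Topology

namespace Vale.Agent.helper6.G

/-- Cross product in the plane. -/
def cr (a b : ℝ × ℝ) : ℝ := a.1 * b.2 - a.2 * b.1

/-- The triangle spanned by three points of the plane, with barycentric coordinates. -/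
def tri (A B C : ℝ × ℝ) : Set (ℝ × ℝ) :=
  {y | ∃ a b c : ℝ, 0 ≤ a ∧ 0 ≤ b ∧ 0 ≤ c ∧ a + b + c = 1 ∧ y = a • A + b • B + c • C}

/-- Twice the area of a triangle. -/
def areaF (A B C : ℝ × ℝ) : ℝ := |cr (B - A) (C - A)|

/-- The standard triangle. -/
def stdTri : Set (ℝ × ℝ) := {p | 0 ≤ p.1 ∧ 0 ≤ p.2 ∧ p.1 + p.2 ≤ 1}

lemma stdTri_subset : stdTri ⊆ Icc (0 : ℝ × ℝ) (1, 1) := by
  rintro ⟨u, v⟩ ⟨h1, h2, h3⟩
  simp only at h1 h2 h3
  exact ⟨⟨h1, h2⟩, ⟨by simp only []; linarith, by simp only []; linarith⟩⟩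

lemma volume_stdTri_ne_top : volume stdTri ≠ ⊤ :=
  ((measure_mono stdTri_subset).trans_lt isCompact_Icc.measure_lt_top).ne

/-- The linear map sending the standard basis to `a`, `b`. -/
def planeMap (a b : ℝ × ℝ) : (ℝ × ℝ) →ₗ[ℝ] (ℝ × ℝ) where
  toFun p := p.1 • a + p.2 • b
  map_add' p q := by
    simp only [Prod.fst_add, Prod.snd_add, add_smul]
    abel
  map_smul' c p := by
    simp only [Prod.smul_fst, Prod.smul_snd, smul_eq_mul, mul_smul, RingHom.id_apply, smul_add]

lemma det_planeMap (a b : ℝ × ℝ) : LinearMap.det (planeMap a b) = cr a b := by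
  have h : LinearMap.toMatrix (Basis.finTwoProd ℝ) (Basis.finTwoProd ℝ) (planeMap a b) =
      !![a.1, b.1; a.2, b.2] := by
    ext i j
    fin_cases i <;> fin_cases j <;>
      simp [LinearMap.toMatrix_apply, planeMap, Basis.finTwoProd]
  rw [← LinearMap.det_toMatrix (Basis.finTwoProd ℝ), h, Matrix.det_fin_two_of, cr]
  ring

lemma tri_eq_image (A B C : ℝ × ℝ) :
    tri A B C = (fun p => A + p) '' (planeMap (B - A) (C - A) '' stdTri) := by
  ext y
  constructor
  · rintro ⟨a, b, c, ha, hb, hc, hsum, rfl⟩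
    refine ⟨planeMap (B - A) (C - A) (b, c), ⟨(b, c), ⟨hb, hc, by simp only []; linarith⟩, rfl⟩, ?_⟩
    have ha' : a = 1 - b - c := by linarith
    subst ha'
    ext <;> simp [planeMap] <;> ring
  · rintro ⟨_, ⟨⟨u, v⟩, ⟨hu, hv, huv⟩, rfl⟩, rfl⟩
    simp only at hu hv huv
    refine ⟨1 - u - v, u, v, by linarith, hu, hv, by ring, ?_⟩
    ext <;> simp [planeMap] <;> ring

lemma volume_tri (A B C : ℝ × ℝ) :
    volume (tri A B C) = ENNReal.ofReal (areaF A B C) * volume stdTri := by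
  rw [tri_eq_image, Set.image_add_left, measure_preimage_add, Measure.addHaar_image_linearMap,
    det_planeMap, areaF]

/-- Elimination step: given nonnegative coefficients and a vector with a positive coordinate,
one can subtract a nonnegative multiple so that all coordinates stay nonnegative and one vanishes. -/
lemma exists_elim (a c : Fin 3 → ℝ) (ha : ∀ i, 0 ≤ a i) (hc : ∃ i, 0 < c i) :
    ∃ t : ℝ, 0 ≤ t ∧ (∀ i, 0 ≤ a i - t * c i) ∧ ∃ i, a i - t * c i = 0 := by
  classical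
  let S : Finset (Fin 3) := Finset.univ.filter fun i => 0 < c i
  have hS : S.Nonempty := by
    obtain ⟨i, hi⟩ := hc
    exact ⟨i, by simp [S, hi]⟩
  obtain ⟨i₀, hi₀, hmin⟩ := S.exists_min_image (fun i => a i / c i) hS
  have hci₀ : 0 < c i₀ := by simpa [S] using hi₀
  refine ⟨a i₀ / c i₀, div_nonneg (ha _) hci₀.le, fun i => ?_, i₀, ?_⟩
  · by_cases hci : 0 < c i
    · have h := hmin i (by simp [S, hci])
      have : a i₀ / c i₀ * c i ≤ a i := (le_div_iff₀ hci).mp h
      linarith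
    · push Not at hci
      have h1 : 0 ≤ a i₀ / c i₀ := div_nonneg (ha _) hci₀.le
      have : a i₀ / c i₀ * c i ≤ 0 := mul_nonpos_of_nonneg_of_nonpos h1 hci
      linarith [ha i]
  · field_simp
    ring

/-- Fan lemma: a triangle is covered by the three triangles joining its edges to any point. -/
lemma tri_subset_fan (y₀ A G B : ℝ × ℝ) :
    tri A G B ⊆ tri y₀ A B ∪ tri y₀ A G ∪ tri y₀ G B := by
  rintro y ⟨α, β, γ, hα, hβ, hγ, hsum, rfl⟩
  -- linear dependence of the three vectors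
  let v : Fin 3 → ℝ × ℝ := ![A - y₀, G - y₀, B - y₀]
  have hdep : ¬ LinearIndependent ℝ v := by
    intro hli
    have := hli.fintype_card_le_finrank
    simp [Module.finrank_prod] at this
  rw [Fintype.not_linearIndependent_iff] at hdep
  obtain ⟨g, hg, hne⟩ := hdep
  -- normalize the sign
  obtain ⟨c, hc, hcsum, hcpos⟩ : ∃ c : Fin 3 → ℝ, ∑ i, c i • v i = 0 ∧ 0 ≤ ∑ i, c i ∧ ∃ i, 0 < c i := by
    rcases le_total 0 (∑ i, g i) with h | h
    · refine ⟨g, hg, h, ?_⟩
      by_contra hcon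
      push Not at hcon
      have hz : ∀ i, g i = 0 := by
        have hnn : ∀ i ∈ Finset.univ, 0 ≤ - g i := fun i _ => by linarith [hcon i]
        have hs : ∑ i, - g i = 0 := by
          have : ∑ i, - g i = - ∑ i, g i := Finset.sum_neg_distrib _
          have h2 : ∑ i, g i ≤ 0 := Finset.sum_nonpos (fun i _ => hcon i)
          linarith
        intro i
        have := (Finset.sum_eq_zero_iff_of_nonneg hnn).mp hs i (Finset.mem_univ i)
        linarith
      obtain ⟨i, hi⟩ := hne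
      exact hi (hz i)
    · refine ⟨fun i => - g i, ?_, ?_, ?_⟩
      · simp only [neg_smul, Finset.sum_neg_distrib, hg, neg_zero]
      · rw [Finset.sum_neg_distrib]; linarith
      · by_contra hcon
        push Not at hcon
        have hz : ∀ i, g i = 0 := by
          have hnn : ∀ i ∈ Finset.univ, 0 ≤ g i := fun i _ => by linarith [hcon i]
          have hs : ∑ i, g i = 0 := le_antisymm h (Finset.sum_nonneg hnn)
          intro i
          exact (Finset.sum_eq_zero_iff_of_nonneg hnn).mp hs i (Finset.mem_univ i)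
        obtain ⟨i, hi⟩ := hne
        exact hi (hz i)
  let a : Fin 3 → ℝ := ![α, β, γ]
  have ha : ∀ i, 0 ≤ a i := by
    intro i
    fin_cases i <;> simp [a, hα, hβ, hγ]
  obtain ⟨t, ht, hnn, i₀, hi₀⟩ := exists_elim a c ha hcpos
  have hc' : c 0 • (A - y₀) + c 1 • (G - y₀) + c 2 • (B - y₀) = 0 := by
    simpa [Fin.sum_univ_three, v] using hc
  have hcs : 0 ≤ c 0 + c 1 + c 2 := by simpa [Fin.sum_univ_three] using hcsum
  have h0 : 0 ≤ α - t * c 0 := by simpa [a] using hnn 0
  have h1 : 0 ≤ β - t * c 1 := by simpa [a] using hnn 1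
  have h2 : 0 ≤ γ - t * c 2 := by simpa [a] using hnn 2
  have hcomp := congrArg Prod.fst hc'
  have hcomp' := congrArg Prod.snd hc'
  simp only [Prod.fst_add, Prod.smul_fst, Prod.fst_sub, smul_eq_mul, Prod.fst_zero] at hcomp
  simp only [Prod.snd_add, Prod.smul_snd, Prod.snd_sub, smul_eq_mul, Prod.snd_zero] at hcomp'
  have hts : 0 ≤ t * (c 0 + c 1 + c 2) := mul_nonneg ht hcs
  -- the new expression
  have hex : ∀ p₀ : ℝ, p₀ = 1 - (α - t * c 0) - (β - t * c 1) - (γ - t * c 2) →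
      α • A + β • G + γ • B =
        p₀ • y₀ + (α - t * c 0) • A + (β - t * c 1) • G + (γ - t * c 2) • B := by
    intro p₀ hp₀
    subst hp₀
    ext
    · simp only [Prod.fst_add, Prod.smul_fst, smul_eq_mul]
      linear_combination y₀.1 * hsum + t * hcomp
    · simp only [Prod.snd_add, Prod.smul_snd, smul_eq_mul]
      linear_combination y₀.2 * hsum + t * hcomp'
  set p₀ := 1 - (α - t * c 0) - (β - t * c 1) - (γ - t * c 2) with hp₀
  have hp₀nn : 0 ≤ p₀ := by
    rw [hp₀]
    nlinarith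
  rw [hex p₀ hp₀]
  fin_cases i₀
  · -- first coefficient vanishes
    have h : α - t * c 0 = 0 := by simpa [a] using hi₀
    refine Or.inr ⟨p₀, _, _, hp₀nn, h1, h2, ?_, ?_⟩
    · rw [hp₀, h]; ring
    · rw [h]; simp
  · have h : β - t * c 1 = 0 := by simpa [a] using hi₀
    refine Or.inl (Or.inl ⟨p₀, _, _, hp₀nn, h0, h2, ?_, ?_⟩)
    · rw [hp₀, h]; ring
    · rw [h]; simp
  · have h : γ - t * c 2 = 0 := by simpa [a] using hi₀
    refine Or.inl (Or.inr ⟨p₀, _, _, hp₀nn, h0, h1, ?_, ?_⟩)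
    · rw [hp₀, h]; ring
    · rw [h]; simp

/-- The union of the fan triangles over a list of pairs. -/
def fanU (y₀ : ℝ × ℝ) (F : List ((ℝ × ℝ) × (ℝ × ℝ))) : Set (ℝ × ℝ) :=
  {y | ∃ p ∈ F, y ∈ tri y₀ p.1 p.2}

lemma fanU_mono (y₀ : ℝ × ℝ) {F F' : List ((ℝ × ℝ) × (ℝ × ℝ))} (h : F ⊆ F') :
    fanU y₀ F ⊆ fanU y₀ F' := by
  rintro y ⟨p, hp, hy⟩
  exact ⟨p, h hp, hy⟩

/-- Coordinates of a cap refinement: the three-piece decomposition of a trapezoid. -/
lemma trapezoid_cover {A B T G : ℝ × ℝ} {g₁ g₂ r : ℝ} (hg₁ : 0 ≤ g₁) (hg₂ : 0 ≤ g₂) (hr : 0 ≤ r)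
    (hsum : g₁ + g₂ + r = 1) (hG : G = g₁ • A + g₂ • B + r • T)
    {α β γ : ℝ} (hα : 0 ≤ α) (hβ : 0 ≤ β) (hγ : 0 ≤ γ) (hs : α + β + γ = 1) (hγr : γ ≤ r) :
    α • A + γ • T + β • B ∈
      tri A G B ∪ tri A ((1 - r) • A + r • T) G ∪ tri G ((1 - r) • B + r • T) B := by
  rcases hr.eq_or_lt with hr0 | hrpos
  · -- degenerate height
    have hγ0 : γ = 0 := by
      subst hr0
      linarith
    refine Or.inl (Or.inl ⟨α, 0, β, hα, le_rfl, hβ, by linarith, ?_⟩)
    rw [hγ0]
    simp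
  set c := γ / r with hc
  have hcr : c * r = γ := by rw [hc]; field_simp
  have hc0 : 0 ≤ c := div_nonneg hγ hrpos.le
  have hc1 : c ≤ 1 := (div_le_one hrpos).mpr hγr
  set a := α - c * g₁ with ha
  set b := β - c * g₂ with hb
  have hab : a + b = 1 - c := by
    have : α + β = 1 - γ := by linarith
    rw [ha, hb]
    have h2 : g₁ + g₂ = 1 - r := by linarith
    nlinarith
  rcases le_or_gt 0 a with ha0 | ha0
  · rcases le_or_gt 0 b with hb0 | hb0
    · refine Or.inl (Or.inl ⟨a, c, b, ha0, hc0, hb0, by linarith, ?_⟩)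
      rw [hG]
      ext
      · simp only [Prod.fst_add, Prod.smul_fst, smul_eq_mul, ha, hb]
        linear_combination (-T.1) * hcr
      · simp only [Prod.snd_add, Prod.smul_snd, smul_eq_mul, ha, hb]
        linear_combination (-T.2) * hcr
    · -- beyond the edge `A G`
      have hg₂pos : 0 < g₂ := by
        by_contra hcon
        have : g₂ = 0 := le_antisymm (not_lt.mp hcon) hg₂
        rw [hb, this] at hb0
        linarith
      set u := β / g₂ with hu
      have hug : u * g₂ = β := by rw [hu]; field_simp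
      have hu0 : 0 ≤ u := div_nonneg hβ hg₂pos.le
      have huc : u ≤ c := by
        rw [hu, div_le_iff₀ hg₂pos]
        rw [hb] at hb0
        linarith
      refine Or.inl (Or.inr ⟨1 - c, c - u, u, by linarith, by linarith, hu0, by ring, ?_⟩)
      rw [hG]
      have hαe : α = (1 - c) + (c - u) * (1 - r) + u * g₁ := by
        have h2 : g₁ = 1 - r - g₂ := by linarith
        have hαγ : α = 1 - β - γ := by linarith
        rw [hαγ, h2, ← hug, ← hcr]
        ring
      have hγe : γ = (c - u) * r + u * r := by rw [← hcr]; ring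
      have hβe : β = u * g₂ := hug.symm
      ext
      · simp only [Prod.fst_add, Prod.smul_fst, smul_eq_mul]
        rw [hαe, hγe, hβe]
        ring
      · simp only [Prod.snd_add, Prod.smul_snd, smul_eq_mul]
        rw [hαe, hγe, hβe]
        ring
  · -- beyond the edge `G B`
    have hg₁pos : 0 < g₁ := by
      by_contra hcon
      have : g₁ = 0 := le_antisymm (not_lt.mp hcon) hg₁
      rw [ha, this] at ha0
      linarith
    set u := α / g₁ with hu
    have hug : u * g₁ = α := by rw [hu]; field_simp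
    have hu0 : 0 ≤ u := div_nonneg hα hg₁pos.le
    have huc : u ≤ c := by
      rw [hu, div_le_iff₀ hg₁pos]
      rw [ha] at ha0
      linarith
    refine Or.inr ⟨u, c - u, 1 - c, hu0, by linarith, by linarith, by ring, ?_⟩
    rw [hG]
    have hβe : β = (1 - c) + (c - u) * (1 - r) + u * g₂ := by
      have h2 : g₂ = 1 - r - g₁ := by linarith
      have hβγ : β = 1 - α - γ := by linarith
      rw [hβγ, h2, ← hug, ← hcr]
      ring
    have hγe : γ = (c - u) * r + u * r := by rw [← hcr]; ring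
    have hαe : α = u * g₁ := hug.symm
    ext
    · simp only [Prod.fst_add, Prod.smul_fst, smul_eq_mul]
      rw [hαe, hγe, hβe]
      ring
    · simp only [Prod.snd_add, Prod.smul_snd, smul_eq_mul]
      rw [hαe, hγe, hβe]
      ring

lemma isCompact_tri (A B C : ℝ × ℝ) : IsCompact (tri A B C) := by
  rw [tri_eq_image]
  have hcomp : IsCompact stdTri := by
    refine isCompact_Icc.of_isClosed_subset ?_ stdTri_subset
    have h1 : IsClosed {p : ℝ × ℝ | 0 ≤ p.1} := isClosed_le continuous_const continuous_fst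
    have h2 : IsClosed {p : ℝ × ℝ | 0 ≤ p.2} := isClosed_le continuous_const continuous_snd
    have h3 : IsClosed {p : ℝ × ℝ | p.1 + p.2 ≤ 1} :=
      isClosed_le (continuous_fst.add continuous_snd) continuous_const
    exact h1.inter (h2.inter h3)
  have hc1 : Continuous (planeMap (B - A) (C - A)) :=
    LinearMap.continuous_of_finiteDimensional _
  exact (hcomp.image hc1).image (continuous_const.add continuous_id)

lemma areaF_child₁ {A B T : ℝ × ℝ} {g₁ g₂ r : ℝ} (hg₂ : 0 ≤ g₂) (hr : 0 ≤ r)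
    (hsum : g₁ + g₂ + r = 1) :
    areaF A ((1 - r) • A + r • T) (g₁ • A + g₂ • B + r • T) = r * g₂ * areaF A T B := by
  have h : cr (((1 - r) • A + r • T) - A) ((g₁ • A + g₂ • B + r • T) - A) =
      r * g₂ * cr (T - A) (B - A) := by
    have hg₁ : g₁ = 1 - g₂ - r := by linarith
    subst hg₁
    simp only [cr, Prod.fst_add, Prod.snd_add, Prod.fst_sub, Prod.snd_sub, Prod.smul_fst,
      Prod.smul_snd, smul_eq_mul]
    ring
  rw [areaF, h, areaF, abs_mul, abs_of_nonneg (mul_nonneg hr hg₂)]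

lemma areaF_child₂ {A B T : ℝ × ℝ} {g₁ g₂ r : ℝ} (hg₁ : 0 ≤ g₁) (hr : 0 ≤ r)
    (hsum : g₁ + g₂ + r = 1) :
    areaF (g₁ • A + g₂ • B + r • T) ((1 - r) • B + r • T) B = r * g₁ * areaF A T B := by
  have h : cr (((1 - r) • B + r • T) - (g₁ • A + g₂ • B + r • T)) (B - (g₁ • A + g₂ • B + r • T)) =
      r * g₁ * cr (T - A) (B - A) := by
    have hg₂ : g₂ = 1 - g₁ - r := by linarith
    subst hg₂
    simp only [cr, Prod.fst_add, Prod.snd_add, Prod.fst_sub, Prod.snd_sub, Prod.smul_fst,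
      Prod.smul_snd, smul_eq_mul]
    ring
  rw [areaF, h, areaF, abs_mul, abs_of_nonneg (mul_nonneg hr hg₁)]

/-- Barycentric coordinates along the height of a triangle. -/
lemma cr_height (A B T : ℝ × ℝ) {a b c : ℝ} (hs : a + b + c = 1) :
    cr (B - A) ((a • A + c • T + b • B) - A) = c * cr (B - A) (T - A) := by
  have ha : a = 1 - b - c := by linarith
  subst ha
  simp only [cr, Prod.fst_add, Prod.snd_add, Prod.fst_sub, Prod.snd_sub, Prod.smul_fst,
    Prod.smul_snd, smul_eq_mul]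
  ring

/-- **Cap recursion.** The part of `D` inside a triangle `A T B`, `A, B ∈ D`, is covered by a fan
with `3 * (2^m - 1)` triangles and an error set of area at most `4^(-m)` times that of `A T B`. -/
lemma cap_cover {D : Set (ℝ × ℝ)} (hD : IsCompact D) (y₀ : ℝ × ℝ) (m : ℕ) :
    ∀ A B T : ℝ × ℝ, A ∈ D → B ∈ D →
    ∃ (F : List ((ℝ × ℝ) × (ℝ × ℝ))) (C : Set (ℝ × ℝ)),
      F.length ≤ 3 * (2 ^ m - 1) ∧ (∀ p ∈ F, p.1 ∈ D ∧ p.2 ∈ D) ∧
      volume C ≤ ENNReal.ofReal ((1 / 4) ^ m * areaF A T B) * volume stdTri ∧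
      D ∩ tri A T B ⊆ fanU y₀ F ∪ C := by
  induction m with
  | zero =>
    intro A B T _ _
    refine ⟨[], tri A T B, by simp, by simp, ?_, ?_⟩
    · rw [volume_tri]; simp
    · intro y hy
      exact Or.inr hy.2
  | succ m ih =>
    intro A B T hA hB
    -- the height function
    set H₀ := cr (B - A) (T - A) with hH₀
    by_cases hH : H₀ = 0
    · -- degenerate triangle
      have harea : areaF A T B = 0 := by
        have : cr (T - A) (B - A) = - H₀ := by
          simp only [hH₀, cr]; ring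
        rw [areaF, this, hH]; simp
      refine ⟨[], tri A T B, by simp, by simp, ?_, ?_⟩
      · rw [volume_tri, harea]; simp
      · intro y hy
        exact Or.inr hy.2
    -- maximize the height on the compact set `D ∩ tri`
    let n : ℝ × ℝ → ℝ := fun y => cr (B - A) (y - A) / H₀
    have hnc : Continuous n := by
      simp only [n, cr]
      fun_prop
    have hcomp : IsCompact (D ∩ tri A T B) := hD.inter_right (isCompact_tri A T B).isClosed
    have hne : (D ∩ tri A T B).Nonempty :=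
      ⟨A, hA, 1, 0, 0, by norm_num, by norm_num, by norm_num, by norm_num, by simp⟩
    obtain ⟨G, hGmem, hGmax⟩ := hcomp.exists_isMaxOn hne hnc.continuousOn
    obtain ⟨hGD, g₁, r, g₂, hg₁, hr, hg₂, hgsum, hGeq⟩ := hGmem
    have hGeq' : G = g₁ • A + g₂ • B + r • T := by
      rw [hGeq]; abel
    have hgsum' : g₁ + g₂ + r = 1 := by linarith
    have hnG : n G = r := by
      simp only [n]
      rw [hGeq, cr_height A B T (a := g₁) (b := g₂) (c := r) (by linarith), ← hH₀]
      field_simp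
    have hTr : ∀ y ∈ D ∩ tri A T B, ∃ α β γ : ℝ, 0 ≤ α ∧ 0 ≤ β ∧ 0 ≤ γ ∧ α + β + γ = 1 ∧ γ ≤ r ∧
        y = α • A + γ • T + β • B := by
      rintro y hy
      have hmax : n y ≤ n G := hGmax hy
      obtain ⟨_, α, γ, β, hα, hγ, hβ, hsum, hyeq⟩ := hy
      refine ⟨α, β, γ, hα, hβ, hγ, by linarith, ?_, hyeq⟩
      have hny : n y = γ := by
        simp only [n]
        rw [hyeq, cr_height A B T (a := α) (b := β) (c := γ) (by linarith), ← hH₀]
        field_simp
      rw [← hny, ← hnG]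
      exact hmax
    -- children
    obtain ⟨F₁, C₁, hF₁, hF₁D, hC₁, hsub₁⟩ := ih A G ((1 - r) • A + r • T) hA hGD
    obtain ⟨F₂, C₂, hF₂, hF₂D, hC₂, hsub₂⟩ := ih G B ((1 - r) • B + r • T) hGD hB
    refine ⟨(A, B) :: (A, G) :: (G, B) :: (F₁ ++ F₂), C₁ ∪ C₂, ?_, ?_, ?_, ?_⟩
    · simp only [List.length_cons, List.length_append]
      have h2 : 1 ≤ 2 ^ m := Nat.one_le_two_pow
      have h3 : 2 ^ (m + 1) = 2 * 2 ^ m := by ring
      omega
    · intro p hp
      simp only [List.mem_cons, List.mem_append] at hp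
      rcases hp with rfl | rfl | rfl | hp | hp
      · exact ⟨hA, hB⟩
      · exact ⟨hA, hGD⟩
      · exact ⟨hGD, hB⟩
      · exact hF₁D p hp
      · exact hF₂D p hp
    · have h1 : areaF A ((1 - r) • A + r • T) G = r * g₂ * areaF A T B := by
        rw [hGeq']; exact areaF_child₁ hg₂ hr hgsum'
      have h2 : areaF G ((1 - r) • B + r • T) B = r * g₁ * areaF A T B := by
        rw [hGeq']; exact areaF_child₂ hg₁ hr hgsum'
      rw [h1] at hC₁
      rw [h2] at hC₂
      have ha0 : 0 ≤ areaF A T B := abs_nonneg _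
      calc volume (C₁ ∪ C₂) ≤ volume C₁ + volume C₂ := measure_union_le _ _
        _ ≤ ENNReal.ofReal ((1 / 4) ^ m * (r * g₂ * areaF A T B)) * volume stdTri +
            ENNReal.ofReal ((1 / 4) ^ m * (r * g₁ * areaF A T B)) * volume stdTri :=
            add_le_add hC₁ hC₂
        _ = ENNReal.ofReal ((1 / 4) ^ m * (r * g₂ * areaF A T B) +
              (1 / 4) ^ m * (r * g₁ * areaF A T B)) * volume stdTri := by
            rw [← add_mul, ← ENNReal.ofReal_add (by positivity) (by positivity)]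
        _ ≤ ENNReal.ofReal ((1 / 4) ^ (m + 1) * areaF A T B) * volume stdTri := by
            gcongr
            have h4 : r * (g₁ + g₂) ≤ 1 / 4 := by
              have : g₁ + g₂ = 1 - r := by linarith
              rw [this]
              nlinarith [sq_nonneg (r - 1 / 2)]
            have hp : (0 : ℝ) ≤ (1 / 4) ^ m := by positivity
            have : (1 / 4 : ℝ) ^ m * (r * g₂ * areaF A T B) + (1 / 4) ^ m * (r * g₁ * areaF A T B) =
                (1 / 4) ^ m * areaF A T B * (r * (g₁ + g₂)) := by ring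
            rw [this, pow_succ]
            have hpp : 0 ≤ (1 / 4 : ℝ) ^ m * areaF A T B := by positivity
            nlinarith
    · intro y hy
      obtain ⟨α, β, γ, hα, hβ, hγ, hsum, hγr, hyeq⟩ := hTr y hy
      have hc := trapezoid_cover hg₁ hg₂ hr hgsum' hGeq' hα hβ hγ hsum hγr
      rw [← hyeq] at hc
      rcases hc with (hc | hc) | hc
      · -- the middle triangle, covered by the fan
        left
        rcases tri_subset_fan y₀ A G B hc with (h | h) | h
        · exact ⟨(A, B), by simp, h⟩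
        · exact ⟨(A, G), by simp, h⟩
        · exact ⟨(G, B), by simp, h⟩
      · rcases hsub₁ ⟨hy.1, hc⟩ with h | h
        · left
          exact fanU_mono y₀ (fun p hp => by simp [hp]) h
        · exact Or.inr (Or.inl h)
      · rcases hsub₂ ⟨hy.1, hc⟩ with h | h
        · left
          exact fanU_mono y₀ (fun p hp => by simp [hp]) h
        · exact Or.inr (Or.inr h)

lemma tri_subset_of_convex {D : Set (ℝ × ℝ)} (hconv : Convex ℝ D) {A B C : ℝ × ℝ} (hA : A ∈ D)
    (hB : B ∈ D) (hC : C ∈ D) : tri A B C ⊆ D := by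
  rintro y ⟨a, b, c, ha, hb, hc, hs, rfl⟩
  have h := hconv.sum_mem (t := Finset.univ) (w := ![a, b, c]) (z := ![A, B, C])
    (by intro i _; fin_cases i <;> simp [ha, hb, hc])
    (by simp [Fin.sum_univ_three, hs])
    (by intro i _; fin_cases i <;> simp [hA, hB, hC])
  simpa [Fin.sum_univ_three] using h

/-- Inscribed fan covering of a planar convex body. -/
theorem fan_cover {D : Set (ℝ × ℝ)} (hD : IsCompact D) (hconv : Convex ℝ D)
    (hint : (interior D).Nonempty) (y₀ : ℝ × ℝ) (m : ℕ) :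
    ∃ (F : List ((ℝ × ℝ) × (ℝ × ℝ))) (C : Set (ℝ × ℝ)),
      F.length ≤ 9 * 2 ^ m ∧ (∀ p ∈ F, p.1 ∈ D ∧ p.2 ∈ D) ∧
      volume C ≤ ENNReal.ofReal (3 * (1 / 4) ^ m) * volume D ∧
      D ⊆ fanU y₀ F ∪ C := by
  -- the triangle of maximal area
  have hne : D.Nonempty := hint.mono interior_subset
  let f : (ℝ × ℝ) × (ℝ × ℝ) × (ℝ × ℝ) → ℝ := fun p => |cr (p.2.1 - p.1) (p.2.2 - p.1)|
  have hfc : Continuous f := by
    simp only [f, cr]
    fun_prop
  have hcomp : IsCompact (D ×ˢ (D ×ˢ D)) := hD.prod (hD.prod hD)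
  obtain ⟨x₀, hx₀⟩ := hne
  have hne3 : (D ×ˢ (D ×ˢ D)).Nonempty := ⟨(x₀, x₀, x₀), hx₀, hx₀, hx₀⟩
  obtain ⟨⟨A₁, A₂, A₃⟩, ⟨hA₁, hA₂, hA₃⟩, hmax⟩ := hcomp.exists_isMaxOn hne3 hfc.continuousOn
  simp only at hA₁ hA₂ hA₃
  set c := cr (A₂ - A₁) (A₃ - A₁) with hc
  have hfmax : ∀ P Q R : ℝ × ℝ, P ∈ D → Q ∈ D → R ∈ D → |cr (Q - P) (R - P)| ≤ |c| := by
    intro P Q R hP hQ hR
    exact hmax (a := (P, Q, R)) ⟨hP, hQ, hR⟩
  -- nondegeneracy
  have hc0 : c ≠ 0 := by
    obtain ⟨z, hz⟩ := hint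
    have hzn : D ∈ 𝓝 z := mem_interior_iff_mem_nhds.mp hz
    obtain ⟨ε, hε, hball⟩ := Metric.mem_nhds_iff.mp hzn
    have h1 : z + (ε / 2, 0) ∈ D := by
      apply hball
      rw [Metric.mem_ball, dist_self_add_left, Prod.norm_def]
      simp only [norm_zero, Real.norm_eq_abs]
      rw [abs_of_pos (by positivity), max_eq_left (by positivity)]
      linarith
    have h2 : z + (0, ε / 2) ∈ D := by
      apply hball
      rw [Metric.mem_ball, dist_self_add_left, Prod.norm_def]
      simp only [norm_zero, Real.norm_eq_abs]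
      rw [abs_of_pos (by positivity), max_eq_right (by positivity)]
      linarith
    have h3 := hfmax z _ _ (interior_subset hz) h1 h2
    intro h0
    rw [h0, abs_zero] at h3
    have h4 : cr (z + (ε / 2, 0) - z) (z + (0, ε / 2) - z) = (ε / 2) ^ 2 := by
      simp only [add_sub_cancel_left, cr]
      ring
    rw [h4, abs_of_nonneg (by positivity)] at h3
    have : 0 < (ε / 2) ^ 2 := by positivity
    linarith
  have habs : |c| ≠ 0 := abs_ne_zero.mpr hc0
  -- corners
  set T₃ := A₁ + A₂ - A₃ with hT₃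
  set T₁ := A₂ + A₃ - A₁ with hT₁
  set T₂ := A₃ + A₁ - A₂ with hT₂
  obtain ⟨F₁, C₁, hF₁, hF₁D, hC₁, hsub₁⟩ := cap_cover hD y₀ m A₁ A₂ T₃ hA₁ hA₂
  obtain ⟨F₂, C₂, hF₂, hF₂D, hC₂, hsub₂⟩ := cap_cover hD y₀ m A₂ A₃ T₁ hA₂ hA₃
  obtain ⟨F₃, C₃, hF₃, hF₃D, hC₃, hsub₃⟩ := cap_cover hD y₀ m A₃ A₁ T₂ hA₃ hA₁
  have ha₃ : areaF A₁ T₃ A₂ = |c| := by
    have : cr (T₃ - A₁) (A₂ - A₁) = c := by
      simp only [hT₃, hc, cr, Prod.fst_add, Prod.snd_add, Prod.fst_sub, Prod.snd_sub]
      ring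
    rw [areaF, this]
  have ha₁ : areaF A₂ T₁ A₃ = |c| := by
    have : cr (T₁ - A₂) (A₃ - A₂) = c := by
      simp only [hT₁, hc, cr, Prod.fst_add, Prod.snd_add, Prod.fst_sub, Prod.snd_sub]
      ring
    rw [areaF, this]
  have ha₂ : areaF A₃ T₂ A₁ = |c| := by
    have : cr (T₂ - A₃) (A₁ - A₃) = c := by
      simp only [hT₂, hc, cr, Prod.fst_add, Prod.snd_add, Prod.fst_sub, Prod.snd_sub]
      ring
    rw [areaF, this]
  rw [ha₃] at hC₁
  rw [ha₁] at hC₂
  rw [ha₂] at hC₃
  have hcv : ENNReal.ofReal |c| * volume stdTri ≤ volume D := by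
    have h := volume_tri A₁ A₂ A₃
    rw [areaF, ← hc] at h
    rw [← h]
    exact measure_mono (tri_subset_of_convex hconv hA₁ hA₂ hA₃)
  refine ⟨(A₁, A₃) :: (A₁, A₂) :: (A₂, A₃) :: (F₁ ++ F₂ ++ F₃), C₁ ∪ C₂ ∪ C₃, ?_, ?_, ?_, ?_⟩
  · simp only [List.length_cons, List.length_append]
    have h2 : 1 ≤ 2 ^ m := Nat.one_le_two_pow
    omega
  · intro p hp
    simp only [List.mem_cons, List.mem_append] at hp
    rcases hp with rfl | rfl | rfl | (hp | hp) | hp
    · exact ⟨hA₁, hA₃⟩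
    · exact ⟨hA₁, hA₂⟩
    · exact ⟨hA₂, hA₃⟩
    · exact hF₁D p hp
    · exact hF₂D p hp
    · exact hF₃D p hp
  · have hp : (0 : ℝ) ≤ (1 / 4) ^ m := by positivity
    have hbound : ∀ C' : Set (ℝ × ℝ), volume C' ≤ ENNReal.ofReal ((1 / 4) ^ m * |c|) * volume stdTri →
        volume C' ≤ ENNReal.ofReal ((1 / 4) ^ m) * volume D := by
      intro C' h
      refine h.trans ?_
      rw [ENNReal.ofReal_mul hp, mul_assoc]
      gcongr
    calc volume (C₁ ∪ C₂ ∪ C₃) ≤ volume C₁ + volume C₂ + volume C₃ :=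
          (measure_union_le _ _).trans (add_le_add_left (measure_union_le _ _) _)
      _ ≤ ENNReal.ofReal ((1 / 4) ^ m) * volume D + ENNReal.ofReal ((1 / 4) ^ m) * volume D +
            ENNReal.ofReal ((1 / 4) ^ m) * volume D :=
          add_le_add (add_le_add (hbound _ hC₁) (hbound _ hC₂)) (hbound _ hC₃)
      _ = ENNReal.ofReal (3 * (1 / 4) ^ m) * volume D := by
          rw [ENNReal.ofReal_mul (by norm_num)]
          simp only [ENNReal.ofReal_ofNat]
          ring
  · intro y hy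
    -- barycentric coordinates
    set l₃ := cr (A₂ - A₁) (y - A₁) / c with hl₃
    set l₂ := cr (y - A₁) (A₃ - A₁) / c with hl₂
    set l₁ := 1 - l₂ - l₃ with hl₁
    have hl₃c : l₃ * c = cr (A₂ - A₁) (y - A₁) := by rw [hl₃]; field_simp
    have hl₂c : l₂ * c = cr (y - A₁) (A₃ - A₁) := by rw [hl₂]; field_simp
    have hl₁c : l₁ * c = cr (A₂ - y) (A₃ - y) := by
      have : l₁ * c = c - l₂ * c - l₃ * c := by rw [hl₁]; ring
      rw [this, hl₂c, hl₃c, hc]
      simp only [cr, Prod.fst_sub, Prod.snd_sub]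
      ring
    have hyeq : y = l₁ • A₁ + l₂ • A₂ + l₃ • A₃ := by
      have hc1 : c = (A₂.1 - A₁.1) * (A₃.2 - A₁.2) - (A₂.2 - A₁.2) * (A₃.1 - A₁.1) := by
        rw [hc]; simp only [cr, Prod.fst_sub, Prod.snd_sub]
      simp only [cr, Prod.fst_sub, Prod.snd_sub] at hl₂c hl₃c
      ext
      · simp only [Prod.fst_add, Prod.smul_fst, smul_eq_mul]
        have : c * (y.1 - (l₁ * A₁.1 + l₂ * A₂.1 + l₃ * A₃.1)) = 0 := by
          rw [hl₁]
          linear_combination (y.1 - A₁.1) * hc1 - (A₂.1 - A₁.1) * hl₂c - (A₃.1 - A₁.1) * hl₃c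
        have h0 := (mul_eq_zero.mp this).resolve_left hc0
        linarith
      · simp only [Prod.snd_add, Prod.smul_snd, smul_eq_mul]
        have : c * (y.2 - (l₁ * A₁.2 + l₂ * A₂.2 + l₃ * A₃.2)) = 0 := by
          rw [hl₁]
          linear_combination (y.2 - A₁.2) * hc1 - (A₂.2 - A₁.2) * hl₂c - (A₃.2 - A₁.2) * hl₃c
        have h0 := (mul_eq_zero.mp this).resolve_left hc0
        linarith
    have hsum : l₁ + l₂ + l₃ = 1 := by rw [hl₁]; ring
    have bound : ∀ (l X : ℝ), l * c = X → |X| ≤ |c| → l ≤ 1 := by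
      intro l X h1 h2
      rw [← h1, abs_mul] at h2
      have hpos : 0 < |c| := lt_of_le_of_ne (abs_nonneg _) habs.symm
      have : |l| ≤ 1 := by
        by_contra hcon
        push Not at hcon
        nlinarith
      exact (abs_le.mp this).2
    have hl₃1 : l₃ ≤ 1 := bound _ _ hl₃c (hfmax A₁ A₂ y hA₁ hA₂ hy)
    have hl₂1 : l₂ ≤ 1 := bound _ _ hl₂c (hfmax A₁ y A₃ hA₁ hy hA₃)
    have hl₁1 : l₁ ≤ 1 := bound _ _ hl₁c (hfmax y A₂ A₃ hy hA₂ hA₃)
    by_cases h3 : l₃ < 0
    · -- corner at `A₁ A₂`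
      have hm : y ∈ D ∩ tri A₁ T₃ A₂ := by
        refine ⟨hy, l₁ + l₃, -l₃, l₂ + l₃, by linarith, by linarith, by linarith, by linarith, ?_⟩
        rw [hyeq, hT₃]
        ext <;> simp only [Prod.fst_add, Prod.snd_add, Prod.fst_sub, Prod.snd_sub, Prod.smul_fst,
          Prod.smul_snd, smul_eq_mul] <;> ring
      rcases hsub₁ hm with h | h
      · left
        exact fanU_mono y₀ (fun p hp => by simp [hp]) h
      · exact Or.inr (Or.inl (Or.inl h))
    by_cases h1 : l₁ < 0
    · have hm : y ∈ D ∩ tri A₂ T₁ A₃ := by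
        refine ⟨hy, l₂ + l₁, -l₁, l₃ + l₁, by linarith, by linarith, by linarith, by linarith, ?_⟩
        rw [hyeq, hT₁]
        ext <;> simp only [Prod.fst_add, Prod.snd_add, Prod.fst_sub, Prod.snd_sub, Prod.smul_fst,
          Prod.smul_snd, smul_eq_mul] <;> ring
      rcases hsub₂ hm with h | h
      · left
        exact fanU_mono y₀ (fun p hp => by simp [hp]) h
      · exact Or.inr (Or.inl (Or.inr h))
    by_cases h2 : l₂ < 0
    · have hm : y ∈ D ∩ tri A₃ T₂ A₁ := by
        refine ⟨hy, l₃ + l₂, -l₂, l₁ + l₂, by linarith, by linarith, by linarith, by linarith, ?_⟩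
        rw [hyeq, hT₂]
        ext <;> simp only [Prod.fst_add, Prod.snd_add, Prod.fst_sub, Prod.snd_sub, Prod.smul_fst,
          Prod.smul_snd, smul_eq_mul] <;> ring
      rcases hsub₃ hm with h | h
      · left
        exact fanU_mono y₀ (fun p hp => by simp [hp]) h
      · exact Or.inr (Or.inr h)
    -- inside the triangle
    push Not at h1 h2 h3
    left
    have hm : y ∈ tri A₁ A₂ A₃ := ⟨l₁, l₂, l₃, h1, h2, h3, hsum, hyeq⟩
    rcases tri_subset_fan y₀ A₁ A₂ A₃ hm with (h | h) | h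
    · exact ⟨(A₁, A₃), by simp, h⟩
    · exact ⟨(A₁, A₂), by simp, h⟩
    · exact ⟨(A₂, A₃), by simp, h⟩

end Vale.Agent.helper6.G
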