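import Mathlib
import Vale.Agent.helper6.G.Plane
import Vale.Agent.helper6.G.Chord

/-!
The deep set has nearly full volume when the body has a nearly extremal chord.
-/

open MeasureTheory Set Module
open scoped ENNReal Pointwise Topology

namespace Vale.Agent.helper6.G

lemma tet_convex (p₀ p₁ p₂ p₃ : P3) : Convex ℝ (tet p₀ p₁ p₂ p₃) := by
  rintro x ⟨a, b, c, d, ha, hb, hc, hd, hs, rfl⟩ y ⟨a', b', c', d', ha', hb', hc', hd', hs', rfl⟩
    u v hu hv huv
  refine ⟨u * a + v * a', u * b + v * b', u * c + v * c', u * d + v * d', by positivity,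
    by positivity, by positivity, by positivity, ?_, ?_⟩
  · have : u * (a + b + c + d) + v * (a' + b' + c' + d') = 1 := by
      rw [hs, hs']; linarith
    linarith
  · module

lemma isCompact_tet (p₀ p₁ p₂ p₃ : P3) : IsCompact (tet p₀ p₁ p₂ p₃) := by
  have h : tet p₀ p₁ p₂ p₃ =
      (fun f : Fin 4 → ℝ => f 0 • p₀ + f 1 • p₁ + f 2 • p₂ + f 3 • p₃) '' stdSimplex ℝ (Fin 4) := by
    ext x
    constructor
    · rintro ⟨a, b, c, d, ha, hb, hc, hd, hs, rfl⟩
      refine ⟨![a, b, c, d], ⟨?_, ?_⟩, by simp⟩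
      · intro i
        fin_cases i <;> simp [ha, hb, hc, hd]
      · simp [Fin.sum_univ_four, hs]
    · rintro ⟨f, ⟨hf, hs⟩, rfl⟩
      refine ⟨f 0, f 1, f 2, f 3, hf _, hf _, hf _, hf _, ?_, rfl⟩
      simpa [Fin.sum_univ_four] using hs
  rw [h]
  exact (isCompact_stdSimplex ℝ (Fin 4)).image (by fun_prop)

lemma measure_list_le {α ι : Type*} [MeasurableSpace α] (μ : Measure α) (T : ι → Set α) (B : ℝ≥0∞)
    (F : List ι) (h : ∀ p ∈ F, μ (T p) ≤ B) :
    μ {x | ∃ p ∈ F, x ∈ T p} ≤ F.length * B := by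
  induction F with
  | nil => simp
  | cons q F ih =>
    have hsub : {x | ∃ p ∈ q :: F, x ∈ T p} ⊆ T q ∪ {x | ∃ p ∈ F, x ∈ T p} := by
      rintro x ⟨p, hp, hx⟩
      rcases List.mem_cons.mp hp with rfl | hp'
      · exact Or.inl hx
      · exact Or.inr ⟨p, hp', hx⟩
    have h1 := h q (by simp)
    have h2 := ih (fun p hp => h p (List.mem_cons_of_mem _ hp))
    calc μ {x | ∃ p ∈ q :: F, x ∈ T p} ≤ μ (T q) + μ {x | ∃ p ∈ F, x ∈ T p} :=
          (measure_mono hsub).trans (measure_union_le _ _)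
      _ ≤ B + F.length * B := add_le_add h1 h2
      _ = (q :: F).length * B := by
          simp only [List.length_cons, Nat.cast_add, Nat.cast_one, add_mul, one_mul]
          rw [add_comm]

/-- The section of a tetrahedron over a contracted point of the base triangle. -/
lemma tet_section {y₀ g g' u : ℝ × ℝ} {z₀ ℓ₀ t t' τ : ℝ} (hℓ : 0 ≤ ℓ₀) (hτ0 : 0 ≤ τ) (hτ1 : τ ≤ 1)
    (hu : u ∈ tri y₀ g g') :
    ENNReal.ofReal ((1 - τ) * ℓ₀) ≤
      volume (Prod.mk ((1 - τ) • y₀ + τ • u) ⁻¹' tet (y₀, z₀) (y₀, z₀ + ℓ₀) (g, t) (g', t')) := by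
  obtain ⟨a₀, α, β, ha₀, hα, hβ, hs, rfl⟩ := hu
  set κ := 1 - τ * α - τ * β with hκ
  have hκ0 : 1 - τ ≤ κ := by
    have : τ * (α + β) ≤ τ * 1 := mul_le_mul_of_nonneg_left (by linarith) hτ0
    rw [hκ]; linarith
  have hκ1 : 0 ≤ κ := by linarith
  set y' := (1 - τ) • y₀ + τ • (a₀ • y₀ + α • g + β • g') with hy'
  have hy'e : y' = κ • y₀ + (τ * α) • g + (τ * β) • g' := by
    have ha₀e : a₀ = 1 - α - β := by linarith
    rw [hy', hκ, ha₀e]
    module
  set lo := κ * z₀ + τ * α * t + τ * β * t' with hlo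
  have h0 : ((y', lo) : P3) ∈ tet (y₀, z₀) (y₀, z₀ + ℓ₀) (g, t) (g', t') := by
    refine ⟨κ, 0, τ * α, τ * β, hκ1, le_rfl, by positivity, by positivity, by rw [hκ]; ring, ?_⟩
    rw [hy'e, hlo]
    ext <;> simp
  have h1 : ((y', lo + κ * ℓ₀) : P3) ∈ tet (y₀, z₀) (y₀, z₀ + ℓ₀) (g, t) (g', t') := by
    refine ⟨0, κ, τ * α, τ * β, le_rfl, hκ1, by positivity, by positivity, by rw [hκ]; ring, ?_⟩
    rw [hy'e, hlo]
    ext <;> simp <;> ring
  have hI : Icc lo (lo + κ * ℓ₀) ⊆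
      Prod.mk y' ⁻¹' tet (y₀, z₀) (y₀, z₀ + ℓ₀) (g, t) (g', t') :=
    (Vale.Agent.helper6.Bang.section_convex (tet_convex _ _ _ _) y').ordConnected.out h0 h1
  refine le_trans ?_ (measure_mono hI)
  rw [Real.volume_Icc]
  apply ENNReal.ofReal_le_ofReal
  have : (1 - τ) * ℓ₀ ≤ κ * ℓ₀ := mul_le_mul_of_nonneg_right hκ0 hℓ
  linarith

/-- **Large deep set.** -/
theorem deep_large {L : Set P3} (hL : IsBody L) {y₀ : ℝ × ℝ} {z₀ ℓ₀ : ℝ} (hℓ : 0 < ℓ₀)
    (ha : (y₀, z₀) ∈ L) (hb : (y₀, z₀ + ℓ₀) ∈ L) {ν : ℝ} (hν : 0 ≤ ν) (hν1 : ν ≤ 1)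
    (hlong : 3 * (1 - ν) * (volume L).toReal ≤ ℓ₀ * (volume (pr L)).toReal)
    {δ : ℝ} (hδ : 0 < δ) (m : ℕ) (hm : 3 * (1 / 4 : ℝ) ^ m ≤ 1) :
    volume (L \ deep L δ) ≤
      ENNReal.ofReal (ν + 3 * (1 / 4) ^ m + 9 * 2 ^ m * (4 * (27 * 512 * δ ^ ((7 : ℝ) / 8))))
        * volume L := by
  obtain ⟨F, C, hlen, hF, hC, hcov⟩ :=
    fan_cover hL.pr_compact hL.pr_convex hL.pr_int_nonempty y₀ m
  have hlift' : ∀ g, g ∈ pr L → ∃ t, (g, t) ∈ L := by
    rintro g ⟨⟨g', t⟩, hp, rfl⟩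
    exact ⟨t, hp⟩
  choose! lift hlift using hlift'
  set Tt : (ℝ × ℝ) × (ℝ × ℝ) → Set P3 :=
    fun p => tet (y₀, z₀) (y₀, z₀ + ℓ₀) (p.1, lift p.1) (p.2, lift p.2) with hTt
  have hTtL : ∀ p ∈ F, Tt p ⊆ L := fun p hp =>
    tet_subset hL.convex ha hb (hlift _ (hF p hp).1) (hlift _ (hF p hp).2)
  set W : Set P3 := {x | ∃ p ∈ F, x ∈ Tt p} with hW
  have hWL : W ⊆ L := by
    rintro x ⟨p, hp, hx⟩
    exact hTtL p hp hx
  have hWc : IsCompact W := by
    have : W = ⋃ p ∈ {p | p ∈ F}, Tt p := by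
      ext x
      simp [hW]
    rw [this]
    exact (List.finite_toSet F).isCompact_biUnion fun p _ => isCompact_tet _ _ _ _
  have hWm : MeasurableSet W := hWc.isClosed.measurableSet
  set U := fanU y₀ F with hU
  have hUc : IsCompact U := by
    have : U = ⋃ p ∈ {p | p ∈ F}, tri y₀ p.1 p.2 := by
      ext x
      simp [hU, fanU]
    rw [this]
    exact (List.finite_toSet F).isCompact_biUnion fun p _ => isCompact_tri _ _ _
  have hy₀ : y₀ ∈ pr L := ⟨_, ha, rfl⟩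
  have hUD : U ⊆ pr L := by
    rintro y ⟨p, hp, hy⟩
    exact tri_subset_of_convex hL.pr_convex hy₀ (hF p hp).1 (hF p hp).2 hy
  have hfinW : ∀ y : ℝ × ℝ, volume (Prod.mk y ⁻¹' W) ≠ ⊤ := fun y =>
    ne_top_of_le_ne_top (hL.section_ne_top y) (measure_mono (preimage_mono hWL))
  -- volume of `W`
  have hWvol : ENNReal.ofReal (ℓ₀ * (2 + 0) / 6) * volume U ≤ volume W := by
    refine layer_cake hWm hfinW hℓ le_rfl ?_
    intro τ hτ0 hτ1
    have h1 : ENNReal.ofReal (τ * (τ + (1 - τ) * 0)) * volume U =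
        volume ((fun u => (1 - τ) • y₀ + τ • u) '' U) := by
      have hdet : LinearMap.det ((τ : ℝ) • (LinearMap.id : (ℝ × ℝ) →ₗ[ℝ] ℝ × ℝ)) = τ * τ := by
        simp only [LinearMap.det_smul, LinearMap.det_id, mul_one]
        have hfr : Module.finrank ℝ (ℝ × ℝ) = 2 := by simp
        rw [hfr]
        ring
      have himg : (fun u => (1 - τ) • y₀ + τ • u) '' U = (fun p => (1 - τ) • y₀ + p) ''
          (((τ : ℝ) • (LinearMap.id : (ℝ × ℝ) →ₗ[ℝ] ℝ × ℝ)) '' U) := by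
        rw [image_image]
        rfl
      rw [himg, Set.image_add_left, measure_preimage_add, Measure.addHaar_image_linearMap, hdet,
        abs_of_nonneg (by positivity)]
      congr 2
      ring
    rw [h1]
    refine measure_mono ?_
    rintro _ ⟨u, ⟨p, hp, hu⟩, rfl⟩
    simp only [mem_ofPred_eq]
    refine (tet_section (z₀ := z₀) (t := lift p.1) (t' := lift p.2) hℓ.le hτ0.le hτ1 hu).trans
      (measure_mono (preimage_mono ?_))
    intro x hx
    exact ⟨p, hp, hx⟩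
  have e26 : ℓ₀ * (2 + 0) / 6 = ℓ₀ / 3 := by ring
  rw [e26] at hWvol
  -- reals
  have hUfin : volume U ≠ ⊤ := hUc.measure_lt_top.ne
  have hDfin := hL.pr_volume_ne_top
  have hVfin := hL.volume_ne_top
  have hV0 := ENNReal.toReal_nonneg (a := volume L)
  have hD0 := ENNReal.toReal_nonneg (a := volume (pr L))
  have hU0 := ENNReal.toReal_nonneg (a := volume U)
  have hVe : ENNReal.ofReal (volume L).toReal = volume L := ENNReal.ofReal_toReal hVfin
  have hDe : ENNReal.ofReal (volume (pr L)).toReal = volume (pr L) := ENNReal.ofReal_toReal hDfin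
  have hUe : ENNReal.ofReal (volume U).toReal = volume U := ENNReal.ofReal_toReal hUfin
  set V := (volume L).toReal with hV
  set AD := (volume (pr L)).toReal with hAD
  set AU := (volume U).toReal with hAU
  set e : ℝ := 3 * (1 / 4) ^ m with he
  have he0 : 0 ≤ e := by positivity
  have hADU : AD ≤ AU + e * AD := by
    have h1 : volume (pr L) ≤ volume U + ENNReal.ofReal e * volume (pr L) :=
      (measure_mono hcov).trans ((measure_union_le _ _).trans (add_le_add le_rfl hC))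
    rw [← hDe, ← hUe, ← ENNReal.ofReal_mul he0, ← ENNReal.ofReal_add hU0 (by positivity)] at h1
    exact (ENNReal.ofReal_le_ofReal_iff (by positivity)).mp h1
  -- the complement of `W`
  have hcomp : volume (L \ W) ≤ ENNReal.ofReal ((ν + e) * V) := by
    rw [measure_diff hWL hWm.nullMeasurableSet (hWc.measure_lt_top.ne)]
    have h1 : ENNReal.ofReal (ℓ₀ / 3 * AU) ≤ volume W := by
      rw [ENNReal.ofReal_mul (by positivity), hUe]
      exact hWvol
    have h2 : volume L - volume W ≤ ENNReal.ofReal V - ENNReal.ofReal (ℓ₀ / 3 * AU) := by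
      rw [hVe]
      exact tsub_le_tsub_left h1 _
    refine h2.trans ?_
    rw [← ENNReal.ofReal_sub _ (by positivity)]
    apply ENNReal.ofReal_le_ofReal
    have h3 : (1 - e) * AD ≤ AU := by linarith
    have h4 : ℓ₀ * ((1 - e) * AD) ≤ ℓ₀ * AU := mul_le_mul_of_nonneg_left h3 hℓ.le
    have h5 : (1 - e) * (3 * (1 - ν) * V) ≤ (1 - e) * (ℓ₀ * AD) :=
      mul_le_mul_of_nonneg_left hlong (by linarith)
    have h6 : 0 ≤ e * ν * V := by positivity
    nlinarith
  -- the wet parts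
  set B₀ : ℝ := 4 * (27 * 512 * δ ^ ((7 : ℝ) / 8)) with hB₀
  have hB₀0 : 0 ≤ B₀ := by positivity
  have hwet : volume {x | ∃ p ∈ F, x ∈ Tt p \ deep L δ} ≤
      ENNReal.ofReal (9 * 2 ^ m * B₀ * V) := by
    have h1 := measure_list_le volume (fun p => Tt p \ deep L δ)
      (ENNReal.ofReal B₀ * volume L) F (fun p hp =>
        wet_tet hL.convex hVfin ha hb (hlift _ (hF p hp).1) (hlift _ (hF p hp).2) hδ)
    refine h1.trans ?_
    have h2 : (F.length : ℝ≥0∞) ≤ ENNReal.ofReal (9 * 2 ^ m) := by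
      rw [← ENNReal.ofReal_natCast]
      apply ENNReal.ofReal_le_ofReal
      exact_mod_cast hlen
    rw [← hVe, ← ENNReal.ofReal_mul hB₀0]
    calc (F.length : ℝ≥0∞) * ENNReal.ofReal (B₀ * V)
        ≤ ENNReal.ofReal (9 * 2 ^ m) * ENNReal.ofReal (B₀ * V) := by gcongr
      _ = ENNReal.ofReal (9 * 2 ^ m * B₀ * V) := by
          rw [← ENNReal.ofReal_mul (by positivity)]
          congr 1
          ring
  have hsub : L \ deep L δ ⊆ (L \ W) ∪ {x | ∃ p ∈ F, x ∈ Tt p \ deep L δ} := by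
    rintro x ⟨hxL, hxd⟩
    by_cases hxW : x ∈ W
    · obtain ⟨p, hp, hx⟩ := hxW
      exact Or.inr ⟨p, hp, hx, hxd⟩
    · exact Or.inl ⟨hxL, hxW⟩
  calc volume (L \ deep L δ)
      ≤ volume (L \ W) + volume {x | ∃ p ∈ F, x ∈ Tt p \ deep L δ} :=
        (measure_mono hsub).trans (measure_union_le _ _)
    _ ≤ ENNReal.ofReal ((ν + e) * V) + ENNReal.ofReal (9 * 2 ^ m * B₀ * V) :=
        add_le_add hcomp hwet
    _ = ENNReal.ofReal (ν + e + 9 * 2 ^ m * B₀) * volume L := by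
        rw [← ENNReal.ofReal_add (by positivity) (by positivity), ← hVe,
          ← ENNReal.ofReal_mul (by positivity)]
        congr 1
        ring

end Vale.Agent.helper6.G
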