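import Mathlib
import Vale.Agent.helper6.BangCore
import Vale.Agent.helper6.G.Large

/-!
Assembly: the dual test set argument for an arbitrary convex body.
-/

open MeasureTheory Set Module Matrix
open scoped ENNReal Pointwise Topology

namespace Vale.Agent.helper6.G

/-- Three-space in coordinates. -/
abbrev E3 := Fin 3 → ℝ

lemma exists_scale (Φ : P3 ≃L[ℝ] E3) :
    ∃ c : ℝ≥0∞, c ≠ 0 ∧ c ≠ ⊤ ∧ ∀ A : Set E3, MeasurableSet A →
      volume A = c * volume (Φ ⁻¹' A) := by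
  let ν : Measure E3 := Measure.map Φ volume
  have : ν.IsAddHaarMeasure := Φ.isAddHaarMeasure_map volume
  have hsm := Measure.isAddLeftInvariant_eq_smul (volume : Measure E3) ν
  refine ⟨(volume : Measure E3).addHaarScalarFactor ν, ?_, ENNReal.coe_ne_top, fun A hA => ?_⟩
  · have hpos := Measure.addHaarScalarFactor_pos_of_isAddHaarMeasure (volume : Measure E3) ν
    simpa using hpos.ne'
  · conv_lhs => rw [hsm]
    rw [Measure.smul_apply, Measure.map_apply Φ.continuous.measurable hA, ENNReal.smul_def,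
      smul_eq_mul]

/-- The deep set in the ambient space. -/
def deepE (K : Set E3) (δ : ℝ) : Set E3 :=
  {x | x ∈ K ∧ ENNReal.ofReal (2 * δ) * volume K ≤ volume (K ∩ {q | (2 : ℝ) • x - q ∈ K})}

lemma preimage_deepE (Φ : P3 ≃L[ℝ] E3) {K : Set E3} (hK : IsClosed K) (δ : ℝ) :
    Φ ⁻¹' deepE K δ = deep (Φ ⁻¹' K) δ := by
  obtain ⟨c, hc0, hct, hc⟩ := exists_scale Φ
  ext p
  have hm : MeasurableSet (K ∩ {q | (2 : ℝ) • Φ p - q ∈ K}) := by
    refine (hK.inter ?_).measurableSet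
    exact hK.preimage (f := fun q => (2 : ℝ) • Φ p - q) (by fun_prop)
  have hpre : Φ ⁻¹' (K ∩ {q | (2 : ℝ) • Φ p - q ∈ K}) =
      (Φ ⁻¹' K) ∩ {q | (2 : ℝ) • p - q ∈ Φ ⁻¹' K} := by
    ext q
    simp [map_sub, map_smul]
  have h1 := hc _ hm
  rw [hpre] at h1
  have h2 := hc K hK.measurableSet
  simp only [deepE, deep, mem_preimage, mem_ofPred_eq]
  refine and_congr_right fun _ => ?_
  rw [h1, h2, mul_left_comm]
  exact ENNReal.mul_le_mul_iff_right hc0 hct

lemma measurableSet_deepE {K : Set E3} (hK : IsClosed K) (δ : ℝ) : MeasurableSet (deepE K δ) := by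
  have hS : IsClosed {p : E3 × E3 | p.2 ∈ K ∧ (2 : ℝ) • p.1 - p.2 ∈ K} := by
    refine (hK.preimage continuous_snd).inter ?_
    exact hK.preimage (f := fun p : E3 × E3 => (2 : ℝ) • p.1 - p.2) (by fun_prop)
  have hm : Measurable fun x : E3 => volume (Prod.mk x ⁻¹' {p : E3 × E3 | p.2 ∈ K ∧ (2 : ℝ) • p.1 - p.2 ∈ K}) :=
    measurable_measure_prodMk_left hS.measurableSet
  have : deepE K δ = K ∩ (fun x : E3 => volume (Prod.mk x ⁻¹' {p : E3 × E3 | p.2 ∈ K ∧ (2 : ℝ) • p.1 - p.2 ∈ K})) ⁻¹'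
      Ici (ENNReal.ofReal (2 * δ) * volume K) := rfl
  rw [this]
  exact hK.measurableSet.inter (hm measurableSet_Ici)

/-- The estimate for one cylinder. -/
lemma weight_piece (Φ : P3 ≃L[ℝ] E3) {K F : Set E3} {S : Set (ℝ × ℝ)} (hK : MeasurableSet K)
    (hF : MeasurableSet F) (hS : MeasurableSet S) {C : ℝ≥0∞}
    (hsec : ∀ y, volume (Prod.mk y ⁻¹' (Φ ⁻¹' F)) * volume (pr (Φ ⁻¹' K)) ≤ C * volume (Φ ⁻¹' K)) :
    volume (F ∩ {x | (Φ.symm x).1 ∈ S}) * volume (pr (Φ ⁻¹' K)) ≤ C * volume K * volume S := by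
  obtain ⟨c, hc0, hct, hc⟩ := exists_scale Φ
  have hcyl : MeasurableSet {x | (Φ.symm x).1 ∈ S} :=
    (continuous_fst.comp Φ.symm.continuous).measurable hS
  have hm := hF.inter hcyl
  have hpre : Φ ⁻¹' (F ∩ {x | (Φ.symm x).1 ∈ S}) = Φ ⁻¹' F ∩ Prod.fst ⁻¹' S := by
    ext p
    simp
  have hG : MeasurableSet (Φ ⁻¹' F) := Φ.continuous.measurable hF
  have hGS : MeasurableSet (Φ ⁻¹' F ∩ Prod.fst ⁻¹' S) := hG.inter (measurable_fst hS)
  rw [hc _ hm, hc _ hK, hpre]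
  set A := volume (pr (Φ ⁻¹' K)) with hA
  set V := volume (Φ ⁻¹' K) with hV
  have h1 : volume (Φ ⁻¹' F ∩ Prod.fst ⁻¹' S) * A ≤ C * V * volume S := by
    have hψm : Measurable fun y : ℝ × ℝ => volume (Prod.mk y ⁻¹' (Φ ⁻¹' F ∩ Prod.fst ⁻¹' S)) :=
      measurable_measure_prodMk_left hGS
    rw [Measure.volume_eq_prod, Measure.prod_apply hGS, ← lintegral_mul_const _ hψm]
    calc ∫⁻ y, volume (Prod.mk y ⁻¹' (Φ ⁻¹' F ∩ Prod.fst ⁻¹' S)) * A
        ≤ ∫⁻ y, S.indicator (fun _ => C * V) y := by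
          refine lintegral_mono fun y => ?_
          by_cases hy : y ∈ S
          · rw [indicator_of_mem hy]
            refine le_trans ?_ (hsec y)
            gcongr
            exact inter_subset_left
          · rw [indicator_of_notMem hy]
            have : Prod.mk y ⁻¹' (Φ ⁻¹' F ∩ Prod.fst ⁻¹' S) = ∅ := by
              ext t
              simp [hy]
            rw [this]
            simp
      _ = C * V * volume S := by
          rw [lintegral_indicator_const hS]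
  calc c * volume (Φ ⁻¹' F ∩ Prod.fst ⁻¹' S) * A = c * (volume (Φ ⁻¹' F ∩ Prod.fst ⁻¹' S) * A) := by
        ring
    _ ≤ c * (C * V * volume S) := by gcongr
    _ = C * (c * V) * volume S := by ring

/-- The estimate for the whole cover. -/
lemma weight_sum {m : ℕ} (Φ : Fin m → P3 ≃L[ℝ] E3) {K F : Set E3} {S : Fin m → Set (ℝ × ℝ)}
    (hK : MeasurableSet K) (hF : MeasurableSet F) (hS : ∀ i, MeasurableSet (S i))
    (hD0 : ∀ i, volume (pr (Φ i ⁻¹' K)) ≠ 0) (hDt : ∀ i, volume (pr (Φ i ⁻¹' K)) ≠ ⊤)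
    (hsub : F ⊆ ⋃ i, {x | ((Φ i).symm x).1 ∈ S i}) {C : ℝ≥0∞}
    (hsec : ∀ i y, volume (Prod.mk y ⁻¹' (Φ i ⁻¹' F)) * volume (pr (Φ i ⁻¹' K)) ≤
      C * volume (Φ i ⁻¹' K)) :
    volume F ≤ C * volume K * ∑ i, volume (S i) / volume (pr (Φ i ⁻¹' K)) := by
  have h1 : F ⊆ ⋃ i, F ∩ {x | ((Φ i).symm x).1 ∈ S i} := by
    intro x hx
    obtain ⟨i, hi⟩ := mem_iUnion.mp (hsub hx)
    exact mem_iUnion.mpr ⟨i, hx, hi⟩
  calc volume F ≤ volume (⋃ i, F ∩ {x | ((Φ i).symm x).1 ∈ S i}) := measure_mono h1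
    _ ≤ ∑ i, volume (F ∩ {x | ((Φ i).symm x).1 ∈ S i}) := measure_iUnion_fintype_le _ _
    _ ≤ ∑ i, C * volume K * (volume (S i) / volume (pr (Φ i ⁻¹' K))) := by
        refine Finset.sum_le_sum fun i _ => ?_
        rw [← mul_div_assoc]
        exact (ENNReal.le_div_iff_mul_le (Or.inl (hD0 i)) (Or.inl (hDt i))).mpr
          (weight_piece (Φ i) hK hF (hS i) (hsec i))
    _ = _ := by rw [Finset.mul_sum]

/-- The body in the coordinates of a splitting. -/
lemma isBody_preimage (Φ : P3 ≃L[ℝ] E3) {K : Set E3} (hcomp : IsCompact K) (hconv : Convex ℝ K)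
    (hint : (interior K).Nonempty) : IsBody (Φ ⁻¹' K) where
  convex := hconv.linear_preimage (Φ.toLinearEquiv.toLinearMap)
  compact := (Φ.toHomeomorph.isCompact_preimage).mpr hcomp
  int_nonempty := by
    obtain ⟨x, hx⟩ := hint
    refine ⟨Φ.symm x, ?_⟩
    have hop : IsOpen (Φ ⁻¹' interior K) := isOpen_interior.preimage Φ.continuous
    refine (interior_maximal (preimage_mono interior_subset) hop) ?_
    simpa using hx

/-- Cancelling a real factor. -/
lemma div_le_of_mul {a b : ℝ} (ha : 0 ≤ a) (hb : 0 < b) {T K : ℝ≥0∞} (hK0 : K ≠ 0) (hKt : K ≠ ⊤)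
    (h : ENNReal.ofReal a * K ≤ ENNReal.ofReal b * K * T) : ENNReal.ofReal (a / b) ≤ T := by
  have h1 : ENNReal.ofReal a ≤ ENNReal.ofReal b * T := by
    have : ENNReal.ofReal a * K ≤ (ENNReal.ofReal b * T) * K := by
      calc _ ≤ _ := h
        _ = _ := by ring
    exact (ENNReal.mul_le_mul_iff_left hK0 hKt).mp this
  have h2 : ENNReal.ofReal a = ENNReal.ofReal b * ENNReal.ofReal (a / b) := by
    rw [← ENNReal.ofReal_mul hb.le]
    congr 1
    field_simp
  rw [h2] at h1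
  exact (ENNReal.mul_le_mul_iff_right (by simpa using hb) ENNReal.ofReal_ne_top).mp h1

/-- The constants. -/
noncomputable def s₀ : ℝ := (1 / 2) ^ 124
noncomputable def δ₀ : ℝ := (1 / 2) ^ 240

lemma s₀_pos : 0 < s₀ := by unfold s₀; positivity
lemma δ₀_pos : 0 < δ₀ := by unfold δ₀; positivity
lemma s₀_le : s₀ ≤ 1 / 100 := by unfold s₀; norm_num
lemma δ₀_ge : 200 * s₀ ^ 2 ≤ δ₀ := by unfold s₀ δ₀; norm_num

lemma δ₀_rpow : δ₀ ^ ((7 : ℝ) / 8) = (1 / 2) ^ 210 := by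
  have h : δ₀ = ((1 / 2 : ℝ) ^ 30) ^ (8 : ℝ) := by
    unfold δ₀
    rw [Real.rpow_ofNat]
    norm_num
  rw [h, ← Real.rpow_mul (by positivity)]
  have : (8 : ℝ) * (7 / 8) = (7 : ℕ) := by norm_num
  rw [this, Real.rpow_natCast]
  norm_num

/-- The depth of the planar approximation. -/
def mm : ℕ := 65

lemma numeric_large :
    s₀ / 8 + 3 * (1 / 4) ^ 65 + 9 * 2 ^ 65 * (4 * (27 * 512 * δ₀ ^ ((7 : ℝ) / 8))) ≤ s₀ / 2 := by
  rw [δ₀_rpow]
  unfold s₀
  norm_num

lemma numeric_A : (1 / 3 + 1 / 10 ^ 40 : ℝ) ≤ 1 / (3 * (1 - s₀ / 8)) := by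
  unfold s₀
  norm_num

lemma numeric_B : (1 / 3 + 1 / 10 ^ 40 : ℝ) ≤ (1 - s₀ / 2) / (3 * (1 - s₀)) := by
  unfold s₀
  norm_num

lemma numeric_m : 3 * (1 / 4 : ℝ) ^ mm ≤ 1 := by
  unfold mm
  norm_num

lemma numeric_large' :
    s₀ / 8 + 3 * (1 / 4) ^ mm + 9 * 2 ^ mm * (4 * (27 * 512 * δ₀ ^ ((7 : ℝ) / 8))) ≤ s₀ / 2 := by
  unfold mm
  exact numeric_large

lemma large_numeric {L : Set P3} (hL : IsBody L) {y₀ : ℝ × ℝ} {z₀ ℓ₀ : ℝ} (hℓ : 0 < ℓ₀)
    (ha : (y₀, z₀) ∈ L) (hb : (y₀, z₀ + ℓ₀) ∈ L)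
    (hlong : 3 * (1 - s₀ / 8) * (volume L).toReal ≤ ℓ₀ * (volume (pr L)).toReal) :
    volume (L \ deep L δ₀) ≤ ENNReal.ofReal (s₀ / 2) * volume L := by
  have hs0 := s₀_pos
  have hs1 := s₀_le
  have h := deep_large hL hℓ ha hb (ν := s₀ / 8) (by positivity) (by linarith) hlong δ₀_pos mm
    numeric_m
  refine h.trans ?_
  gcongr
  exact numeric_large'

/-- **Cylinder coverings of arbitrary convex bodies, in linear coordinates.** -/
theorem general_cover_bound {K : Set E3} (hcomp : IsCompact K) (hconv : Convex ℝ K)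
    (hint : (interior K).Nonempty) {m : ℕ} (P : Fin m → E3 →ₗ[ℝ] ℝ × ℝ)
    (hP : ∀ i, Function.Surjective (P i)) (B : Fin m → Set (ℝ × ℝ))
    (hcover : K ⊆ ⋃ i, {x | P i x ∈ B i}) :
    ENNReal.ofReal (1 / 3 + 1 / 10 ^ 40) ≤ ∑ i, volume (B i) / volume (P i '' K) := by
  have hKm : MeasurableSet K := hcomp.isClosed.measurableSet
  have hK0 : volume K ≠ 0 := by
    obtain ⟨x, hx⟩ := hint
    exact (Measure.measure_pos_of_mem_nhds _ (mem_interior_iff_mem_nhds.mp hx)).ne'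
  have hKt : volume K ≠ ⊤ := hcomp.measure_lt_top.ne
  -- the splittings
  have hsplit : ∀ i, ∃ Φ : P3 ≃L[ℝ] E3, ∀ x, (Φ.symm x).1 = P i x := fun i =>
    Vale.Agent.helper6.Bang.exists_splitting (P i) (hP i) (by simp)
  choose Φ hΦ using hsplit
  have hD : ∀ i, pr (Φ i ⁻¹' K) = P i '' K := by
    intro i
    ext v
    constructor
    · rintro ⟨p, hp, rfl⟩
      refine ⟨Φ i p, hp, ?_⟩
      rw [← hΦ, ContinuousLinearEquiv.symm_apply_apply]
    · rintro ⟨x, hx, rfl⟩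
      refine ⟨(Φ i).symm x, ?_, hΦ i x⟩
      simpa using hx
  have hL : ∀ i, IsBody (Φ i ⁻¹' K) := fun i => isBody_preimage (Φ i) hcomp hconv hint
  have hD0 : ∀ i, volume (pr (Φ i ⁻¹' K)) ≠ 0 := fun i => (hL i).pr_volume_pos.ne'
  have hDt : ∀ i, volume (pr (Φ i ⁻¹' K)) ≠ ⊤ := fun i => (hL i).pr_volume_ne_top
  -- measurable hulls of the bases
  let S : Fin m → Set (ℝ × ℝ) := fun i => toMeasurable volume (B i)
  have hSm : ∀ i, MeasurableSet (S i) := fun i => measurableSet_toMeasurable _ _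
  have hBS : ∀ i, B i ⊆ S i := fun i => subset_toMeasurable _ _
  have hSvol : ∀ i, volume (S i) = volume (B i) := fun i => measure_toMeasurable _
  have hcov : K ⊆ ⋃ i, {x | ((Φ i).symm x).1 ∈ S i} := by
    intro x hx
    obtain ⟨i, hi⟩ := mem_iUnion.mp (hcover hx)
    refine mem_iUnion.mpr ⟨i, ?_⟩
    simp only [mem_ofPred_eq, hΦ]
    exact hBS i hi
  have hT : ∑ i, volume (B i) / volume (P i '' K) =
      ∑ i, volume (S i) / volume (pr (Φ i ⁻¹' K)) := by
    refine Finset.sum_congr rfl fun i _ => ?_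
    rw [hD, hSvol]
  rw [hT]
  set T := ∑ i, volume (S i) / volume (pr (Φ i ⁻¹' K)) with hTdef
  have hs0 := s₀_pos
  have hs1 := s₀_le
  by_cases hA : ∀ i y, volume (Prod.mk y ⁻¹' (Φ i ⁻¹' K)) * volume (pr (Φ i ⁻¹' K)) ≤
      ENNReal.ofReal (3 * (1 - s₀ / 8)) * volume (Φ i ⁻¹' K)
  · -- no long chord
    have h1 := weight_sum Φ hKm hKm hSm hD0 hDt hcov hA
    have h2 : ENNReal.ofReal (1 / (3 * (1 - s₀ / 8))) ≤ T := by
      refine div_le_of_mul (by norm_num) (by linarith) hK0 hKt ?_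
      simpa using h1
    exact (ENNReal.ofReal_le_ofReal numeric_A).trans h2
  · -- a long chord exists
    push Not at hA
    obtain ⟨i₀, y₀, hy₀⟩ := hA
    set L₀ := Φ i₀ ⁻¹' K with hL₀
    have hB0 := hL i₀
    have hy₀D : y₀ ∈ pr L₀ := by
      by_contra hcon
      have : Prod.mk y₀ ⁻¹' L₀ = ∅ := by
        ext w
        simp only [mem_preimage, mem_empty_iff_false, iff_false]
        exact fun h => hcon ⟨(y₀, w), h, rfl⟩
      rw [this] at hy₀
      simp at hy₀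
    obtain ⟨zm, zp, hz, hsec⟩ := hB0.section_eq_Icc hy₀D
    rw [hsec, Real.volume_Icc] at hy₀
    have hV0 := ENNReal.toReal_nonneg (a := volume L₀)
    have hA0 := ENNReal.toReal_nonneg (a := volume (pr L₀))
    rw [← ENNReal.ofReal_toReal hB0.volume_ne_top, ← ENNReal.ofReal_toReal hB0.pr_volume_ne_top,
      ← ENNReal.ofReal_mul (by linarith : (0 : ℝ) ≤ 3 * (1 - s₀ / 8)),
      ← ENNReal.ofReal_mul (by linarith : (0 : ℝ) ≤ zp - zm)] at hy₀
    have hy₀' := (ENNReal.ofReal_lt_ofReal_iff_of_nonneg (by nlinarith)).mp hy₀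
    have hzpos : 0 < zp - zm := by
      rcases (sub_nonneg.mpr hz).eq_or_lt with h | h
      · rw [← h] at hy₀'
        have : 0 ≤ 3 * (1 - s₀ / 8) * (volume L₀).toReal := by nlinarith
        linarith
      · exact h
    have h1L : (y₀, zm) ∈ L₀ := by
      have : zm ∈ Prod.mk y₀ ⁻¹' L₀ := by rw [hsec]; exact ⟨le_rfl, hz⟩
      exact this
    have h2L : (y₀, zm + (zp - zm)) ∈ L₀ := by
      have : zp ∈ Prod.mk y₀ ⁻¹' L₀ := by rw [hsec]; exact ⟨hz, le_rfl⟩
      have e : zm + (zp - zm) = zp := by ring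
      rw [e]
      exact this
    have hlarge' : volume (L₀ \ deep L₀ δ₀) ≤ ENNReal.ofReal (s₀ / 2) * volume L₀ :=
      large_numeric hB0 hzpos h1L h2L hy₀'.le
    set F := deepE K δ₀ with hF
    have hFm : MeasurableSet F := measurableSet_deepE hcomp.isClosed δ₀
    have hFpre : ∀ i, Φ i ⁻¹' F = deep (Φ i ⁻¹' K) δ₀ := fun i =>
      preimage_deepE (Φ i) hcomp.isClosed δ₀
    have hFK : F ⊆ K := fun x hx => hx.1
    -- the volume of the deep set
    have hvolF : ENNReal.ofReal (1 - s₀ / 2) * volume K ≤ volume F := by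
      obtain ⟨c, hc0, hct, hc⟩ := exists_scale (Φ i₀)
      have h1 : volume (K \ F) ≤ ENNReal.ofReal (s₀ / 2) * volume K := by
        rw [hc _ (hKm.diff hFm), hc K hKm, preimage_diff, hFpre i₀, mul_left_comm]
        gcongr
      have h2 : volume K ≤ volume F + ENNReal.ofReal (s₀ / 2) * volume K := by
        calc volume K ≤ volume (F ∪ (K \ F)) := measure_mono (by
              intro x hx
              by_cases hxF : x ∈ F
              · exact Or.inl hxF
              · exact Or.inr ⟨hx, hxF⟩)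
          _ ≤ volume F + volume (K \ F) := measure_union_le _ _
          _ ≤ _ := by gcongr
      have hKe : ENNReal.ofReal (volume K).toReal = volume K := ENNReal.ofReal_toReal hKt
      have hFt : volume F ≠ ⊤ := ne_top_of_le_ne_top hKt (measure_mono hFK)
      have hFe : ENNReal.ofReal (volume F).toReal = volume F := ENNReal.ofReal_toReal hFt
      have hK00 := ENNReal.toReal_nonneg (a := volume K)
      have hF00 := ENNReal.toReal_nonneg (a := volume F)
      have hs2 : (0 : ℝ) ≤ s₀ / 2 := by linarith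
      have hs3 : (0 : ℝ) ≤ s₀ / 2 * (volume K).toReal := mul_nonneg hs2 hK00
      rw [← hKe, ← hFe, ← ENNReal.ofReal_mul hs2,
        ← ENNReal.ofReal_add hF00 hs3] at h2
      have h3 := (ENNReal.ofReal_le_ofReal_iff (add_nonneg hF00 hs3)).mp h2
      rw [← hKe, ← hFe, ← ENNReal.ofReal_mul (by linarith)]
      apply ENNReal.ofReal_le_ofReal
      linarith
    have hsecF : ∀ i y, volume (Prod.mk y ⁻¹' (Φ i ⁻¹' F)) * volume (pr (Φ i ⁻¹' K)) ≤
        ENNReal.ofReal (3 * (1 - s₀)) * volume (Φ i ⁻¹' K) := by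
      intro i y
      rw [hFpre i]
      exact deep_section_le (hL i) hs0 hs1 δ₀_ge y
    have h1 := weight_sum Φ hKm hFm hSm hD0 hDt (hFK.trans hcov) hsecF
    have h2 : ENNReal.ofReal ((1 - s₀ / 2) / (3 * (1 - s₀))) ≤ T :=
      div_le_of_mul (by linarith) (by linarith) hK0 hKt (hvolF.trans h1)
    exact (ENNReal.ofReal_le_ofReal numeric_B).trans h2

/-- The statement for orthonormal frames of `ℝ³`: the plane of a cylinder is given by its
orthonormal basis `e, f`, its axis by the unit vector `u`. -/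
theorem frame_general_bound (K : Set (Fin 3 → ℝ))
    (hK_compact : IsCompact K) (hK_convex : Convex ℝ K) (hK_interior : (interior K).Nonempty)
    {m : ℕ} (e f u : Fin m → Fin 3 → ℝ)
    (hframe : ∀ i, e i ⬝ᵥ e i = 1 ∧ f i ⬝ᵥ f i = 1 ∧ u i ⬝ᵥ u i = 1 ∧
      e i ⬝ᵥ f i = 0 ∧ e i ⬝ᵥ u i = 0 ∧ f i ⬝ᵥ u i = 0)
    (B : Fin m → Set (ℝ × ℝ))
    (hcover : K ⊆ ⋃ i, {x | ∃ b ∈ B i, ∃ t : ℝ, x = b.1 • e i + b.2 • f i + t • u i}) :
    ENNReal.ofReal (1 / 3 + 1 / 10 ^ 40) ≤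
      ∑ i, volume (B i) / volume ((fun x => (e i ⬝ᵥ x, f i ⬝ᵥ x)) '' K) := by
  let P : Fin m → (Fin 3 → ℝ) →ₗ[ℝ] ℝ × ℝ := fun i =>
    { toFun := fun x => (e i ⬝ᵥ x, f i ⬝ᵥ x)
      map_add' := fun x y => by simp [dotProduct_add]
      map_smul' := fun c x => by simp [dotProduct_smul] }
  have hPapply : ∀ i x, P i x = (e i ⬝ᵥ x, f i ⬝ᵥ x) := fun i x => rfl
  have hP : ∀ i, Function.Surjective (P i) := by
    intro i
    rintro ⟨a, b⟩
    obtain ⟨h1, h2, -, h4, -, -⟩ := hframe i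
    refine ⟨a • e i + b • f i, ?_⟩
    rw [hPapply]
    have h4' : f i ⬝ᵥ e i = 0 := by rw [dotProduct_comm]; exact h4
    simp [dotProduct_add, dotProduct_smul, h1, h2, h4, h4']
  exact general_cover_bound hK_compact hK_convex hK_interior P hP B (by
      intro x hx
      obtain ⟨i, b, hb, t, rfl⟩ := mem_iUnion.mp (hcover hx)
      refine mem_iUnion.mpr ⟨i, ?_⟩
      obtain ⟨h1, h2, -, h4, h5, h6⟩ := hframe i
      have h4' : f i ⬝ᵥ e i = 0 := by rw [dotProduct_comm]; exact h4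
      have : P i (b.1 • e i + b.2 • f i + t • u i) = b := by
        rw [hPapply]
        simp [dotProduct_add, dotProduct_smul, h1, h2, h4, h4', h5, h6]
      simp only [mem_ofPred_eq, this]
      exact hb)

end Vale.Agent.helper6.G
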